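import Vale.Agent.P236.Lift

/-!
P236.  The cobar differential raises the length of words by one; consequences for
coboundaries of homogeneous elements.
-/

open TensorProduct

namespace Vale.Agent.P236

variable {k C : Type*} [CommRing k] [AddCommGroup C] [Module k C]

/-- the words of length `s` (cohomological degree `s` of the cobar complex) -/
noncomputable def cochains (k C : Type*) [CommRing k] [AddCommGroup C] [Module k C] (s : ℕ) :
    Submodule k (TensorAlgebra k C) :=
  (LinearMap.range (TensorAlgebra.ι k : C →ₗ[k] TensorAlgebra k C)) ^ s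

lemma ι_mem (a : C) : TensorAlgebra.ι k a ∈ cochains k C 1 := by
  rw [cochains, pow_one]; exact LinearMap.mem_range_self _ _

lemma mul_mem' {s t : ℕ} {u v : TensorAlgebra k C} (hu : u ∈ cochains k C s)
    (hv : v ∈ cochains k C t) : u * v ∈ cochains k C (s + t) := by
  rw [cochains, pow_add]; exact Submodule.mul_mem_mul hu hv

lemma conc_mem (z : C ⊗[k] C) : conc (k := k) z ∈ cochains k C 2 := by
  induction z using TensorProduct.induction_on with
  | zero => rw [map_zero]; exact Submodule.zero_mem _
  | tmul a b => rw [conc_tmul]; exact mul_mem' (ι_mem a) (ι_mem b)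
  | add a b ha hb => rw [map_add]; exact Submodule.add_mem _ ha hb

lemma cobarD_mem (Δ : C →ₗ[k] C ⊗[k] C) (e : C) {s : ℕ} {u : TensorAlgebra k C}
    (hu : u ∈ cochains k C s) : cobarD Δ e u ∈ cochains k C (s + 1) := by
  unfold cochains at hu
  induction hu using Submodule.pow_induction_on_left' with
  | algebraMap r =>
      rw [Algebra.algebraMap_eq_smul_one, map_smul, cobarD_one, smul_zero]
      exact Submodule.zero_mem _
  | add x y i hx hy ihx ihy => rw [map_add]; exact Submodule.add_mem _ ihx ihy
  | mem_mul m hm i x hx ih =>
      obtain ⟨a, rfl⟩ := hm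
      rw [cobarD_mul, sgn_ι, cobarD_ι]
      have hx' : x ∈ cochains k C i := hx
      refine Submodule.add_mem _ ?_ ?_
      · have h : TensorAlgebra.ι k e * TensorAlgebra.ι k a
          + TensorAlgebra.ι k a * TensorAlgebra.ι k e - conc (Δ a) ∈ cochains k C 2 :=
          Submodule.sub_mem _ (Submodule.add_mem _ (mul_mem' (ι_mem e) (ι_mem a))
            (mul_mem' (ι_mem a) (ι_mem e))) (conc_mem _)
        have := mul_mem' h hx'
        rwa [show 2 + i = i + 1 + 1 by ring] at this
      · have := mul_mem' (Submodule.neg_mem _ (ι_mem (k := k) a)) ih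
        rwa [show 1 + (i + 1) = i + 1 + 1 by ring] at this

/-- the grading of the tensor algebra by the length of words -/
@[reducible] noncomputable def gradedCochains (k C : Type*) [CommRing k] [AddCommGroup C]
    [Module k C] : GradedAlgebra (cochains k C) :=
  TensorAlgebra.gradedAlgebra (R := k) (M := C)

/-- a homogeneous coboundary is the coboundary of a homogeneous cochain -/
lemma exists_homogeneous (Δ : C →ₗ[k] C ⊗[k] C) (e : C) {s : ℕ} {t : TensorAlgebra k C}
    (ht : t ∈ cochains k C (s + 1)) (h : ∃ c, cobarD Δ e c = t) :
    ∃ c ∈ cochains k C s, cobarD Δ e c = t := by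
  let _ := gradedCochains k C
  obtain ⟨c, hc⟩ := h
  have key : ∀ c : TensorAlgebra k C,
      GradedRing.proj (cochains k C) (s + 1) (cobarD Δ e c)
      = cobarD Δ e (GradedRing.proj (cochains k C) s c) := by
    intro c
    induction c using DirectSum.Decomposition.inductionOn (cochains k C) with
    | zero => simp
    | add a b ha hb => simp only [map_add, ha, hb]
    | @homogeneous i m =>
        obtain ⟨m, hm⟩ := m
        have h1 := cobarD_mem Δ e (s := i) (u := m) hm
        rw [GradedRing.proj_apply, GradedRing.proj_apply]
        by_cases his : i = s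
        · subst his
          rw [DirectSum.decompose_of_mem_same _ h1, DirectSum.decompose_of_mem_same _ hm]
        · rw [DirectSum.decompose_of_mem_ne _ h1 (by omega), DirectSum.decompose_of_mem_ne _ hm his,
            map_zero]
  refine ⟨GradedRing.proj (cochains k C) s c, ?_, ?_⟩
  · rw [GradedRing.proj_apply]; exact SetLike.coe_mem _
  · rw [← key, hc, GradedRing.proj_apply]
    exact DirectSum.decompose_of_mem_same _ ht

end Vale.Agent.P236
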