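import Vale.Agent.P236.Lift

/-!
P236.  `h_0 b_0³` is not a coboundary in the cobar complex of `F₃[ξ₁, ξ₂, …]`
(restriction to the quotient `F₃[x]/(x³)`).
-/

open TensorProduct Module

namespace Vale.Agent.P236

/-- `F₃[x]/(x³)` -/
abbrev Q3 := AdjoinRoot ((Polynomial.X : Polynomial (ZMod 3)) ^ 3)

noncomputable abbrev rt : Q3 := AdjoinRoot.root _

lemma rt_cube : rt ^ 3 = 0 := by
  have := AdjoinRoot.eval₂_root ((Polynomial.X : Polynomial (ZMod 3)) ^ 3)
  simpa using this

/-- the quotient map -/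
noncomputable def q3 : MvPolynomial ℕ (ZMod 3) →ₐ[ZMod 3] Q3 :=
  MvPolynomial.aeval fun n => if n = 0 then rt else 0

lemma three_zero {A : Type*} [CommRing A] [Algebra (ZMod 3) A] (t : A) : 3 * t = 0 := by
  have h : (3 : ℕ) • t = 0 := by
    rw [← Nat.cast_smul_eq_nsmul (ZMod 3)]
    have : ((3 : ℕ) : ZMod 3) = 0 := by decide
    rw [this, zero_smul]
  rw [nsmul_eq_mul] at h
  exact_mod_cast h

/-- coproduct of the quotient -/
noncomputable def ΔQ : Q3 →ₐ[ZMod 3] Q3 ⊗[ZMod 3] Q3 :=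
  AdjoinRoot.liftAlgHom _ (Algebra.ofId _ _) (rt ⊗ₜ[ZMod 3] 1 + 1 ⊗ₜ[ZMod 3] rt) (by
    have h1 : (rt ⊗ₜ[ZMod 3] (1 : Q3)) ^ 3 = 0 := by
      rw [Algebra.TensorProduct.tmul_pow, rt_cube, TensorProduct.zero_tmul]
    have h2 : ((1 : Q3) ⊗ₜ[ZMod 3] rt) ^ 3 = 0 := by
      rw [Algebra.TensorProduct.tmul_pow, rt_cube, TensorProduct.tmul_zero]
    have h3 := three_zero (A := Q3 ⊗[ZMod 3] Q3)
      ((rt ⊗ₜ[ZMod 3] 1) ^ 2 * (1 ⊗ₜ[ZMod 3] rt) + (rt ⊗ₜ[ZMod 3] 1) * (1 ⊗ₜ[ZMod 3] rt) ^ 2)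
    simp only [Polynomial.eval₂_pow, Polynomial.eval₂_X]
    linear_combination h1 + h2 + h3)

lemma ΔQ_rt : ΔQ rt = rt ⊗ₜ[ZMod 3] 1 + 1 ⊗ₜ[ZMod 3] rt := by
  simp [ΔQ, rt]

lemma q3_xi_zero : q3 (xi (ZMod 3) 0) = 1 := by simp [xi]

lemma q3_xi_one : q3 (xi (ZMod 3) 1) = rt := by simp [xi, q3]

lemma q3_xi_two (n : ℕ) : q3 (xi (ZMod 3) (n + 2)) = 0 := by simp [xi, q3]

lemma q3_comp :
    (Algebra.TensorProduct.map q3 q3).comp (milnorΔ (ZMod 3)) = ΔQ.comp q3 := by
  apply MvPolynomial.algHom_ext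
  intro n
  simp only [AlgHom.comp_apply, milnorΔ, MvPolynomial.aeval_X, map_sum,
    Algebra.TensorProduct.map_tmul, map_pow]
  cases n with
  | zero =>
      have : q3 (MvPolynomial.X 0) = rt := q3_xi_one
      rw [this, ΔQ_rt]
      simp [Finset.Nat.antidiagonal_succ, q3_xi_one, q3_xi_zero, add_comm]
  | succ n =>
      have : q3 (MvPolynomial.X (n + 1)) = 0 := q3_xi_two n
      rw [this, map_zero]
      apply Finset.sum_eq_zero
      rintro ⟨a, b⟩ hab
      replace hab : a + b = n + 1 + 1 := Finset.HasAntidiagonal.mem_antidiagonal.mp hab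
      simp only
      match b, hab with
      | 0, hab =>
          obtain rfl : a = n + 2 := by omega
          rw [q3_xi_two]; simp
      | 1, hab =>
          obtain rfl : a = n + 1 := by omega
          have : q3 (xi (ZMod 3) (n + 1)) ^ 3 = 0 := by
            cases n with
            | zero => rw [q3_xi_one, rt_cube]
            | succ n => rw [q3_xi_two]; simp
          rw [pow_one, this, TensorProduct.zero_tmul]
      | b + 2, hab => rw [q3_xi_two, TensorProduct.tmul_zero]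

lemma ext_rt {M : Type*} [AddCommGroup M] [Module (ZMod 3) M] (f g : Q3 →ₗ[ZMod 3] M)
    (h0 : f 1 = g 1) (h1 : f rt = g rt) (h2 : f (rt ^ 2) = g (rt ^ 2)) : f = g := by
  apply LinearMap.ext
  intro a
  induction a using AdjoinRoot.induction_on with
  | ih q =>
      induction q using Polynomial.induction_on' with
      | add p q hp hq => rw [map_add, map_add, map_add, hp, hq]
      | monomial n c =>
          have e : AdjoinRoot.mk ((Polynomial.X : Polynomial (ZMod 3)) ^ 3) (Polynomial.monomial n c)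
              = c • rt ^ n := by
            rw [← Polynomial.C_mul_X_pow_eq_monomial, map_mul, map_pow, AdjoinRoot.mk_X,
              Algebra.smul_def]
            rfl
          rw [e, map_smul, map_smul]
          congr 1
          match n with
          | 0 => simpa using h0
          | 1 => simpa using h1
          | 2 => exact h2
          | n + 3 => rw [pow_add, rt_cube, mul_zero, map_zero, map_zero]

lemma monicX3 : ((Polynomial.X : Polynomial (ZMod 3)) ^ 3).Monic := Polynomial.monic_X_pow 3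

/-- coefficient of `x^i` -/
noncomputable def cf (i : ℕ) : Q3 →ₗ[ZMod 3] ZMod 3 :=
  (Polynomial.lcoeff (ZMod 3) i) ∘ₗ AdjoinRoot.modByMonicHom monicX3

lemma cf_pow (i n : ℕ) (hn : n < 3) : cf i (rt ^ n) = if i = n then 1 else 0 := by
  have e : (rt ^ n : Q3) = AdjoinRoot.mk ((Polynomial.X : Polynomial (ZMod 3)) ^ 3)
      (Polynomial.X ^ n) := by
    rw [map_pow, AdjoinRoot.mk_X]
  rw [cf, LinearMap.comp_apply, e, AdjoinRoot.modByMonicHom_mk,
    (Polynomial.modByMonic_eq_self_iff monicX3).2]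
  · rw [Polynomial.lcoeff_apply, Polynomial.coeff_X_pow]
  · rw [Polynomial.degree_X_pow, Polynomial.degree_X_pow]
    exact_mod_cast hn

/-- linear map to `2 × 2` matrices -/
noncomputable def ml : Q3 →ₗ[ZMod 3] Matrix (Fin 2) (Fin 2) (ZMod 3) where
  toFun a := !![0, cf 1 a; cf 2 a, 0]
  map_add' a b := by
    ext i j; fin_cases i <;> fin_cases j <;> simp
  map_smul' r a := by
    ext i j; fin_cases i <;> fin_cases j <;> simp

lemma ml_apply (a : Q3) : ml a = !![0, cf 1 a; cf 2 a, 0] := rfl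

noncomputable def mh : TensorAlgebra (ZMod 3) Q3 →ₐ[ZMod 3] Matrix (Fin 2) (Fin 2) (ZMod 3) :=
  TensorAlgebra.lift _ ml

lemma mh_ι (a : Q3) : mh (TensorAlgebra.ι (ZMod 3) a) = !![0, cf 1 a; cf 2 a, 0] := by
  rw [mh, TensorAlgebra.lift_ι_apply, ml_apply]

lemma ml_one : ml 1 = 0 := by
  have h1 := cf_pow 1 0 (by norm_num)
  have h2 := cf_pow 2 0 (by norm_num)
  rw [pow_zero] at h1 h2
  rw [ml_apply, h1, h2]
  decide

lemma ml_rt : ml rt = !![0, 1; 0, 0] := by
  have h1 := cf_pow 1 1 (by norm_num)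
  have h2 := cf_pow 2 1 (by norm_num)
  rw [pow_one] at h1 h2
  rw [ml_apply, h1, h2]
  decide

lemma ml_rt2 : ml (rt ^ 2) = !![0, 0; 1, 0] := by
  have h1 := cf_pow 1 2 (by norm_num)
  have h2 := cf_pow 2 2 (by norm_num)
  rw [ml_apply, h1, h2]
  decide

lemma mh_letter (a : Q3) : mh (cobarD ΔQ.toLinearMap 1 (TensorAlgebra.ι (ZMod 3) a)) = 0 := by
  have h1 : mh (TensorAlgebra.ι (ZMod 3) (1 : Q3)) = 0 := by
    rw [mh, TensorAlgebra.lift_ι_apply, ml_one]
  have h : (mh.toLinearMap ∘ₗ (conc ∘ₗ ΔQ.toLinearMap) : Q3 →ₗ[ZMod 3] _) = 0 := by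
    apply ext_rt
    · simp only [LinearMap.comp_apply, AlgHom.toLinearMap_apply, map_one,
        Algebra.TensorProduct.one_def, conc_tmul, map_mul, h1]
      simp
    · simp only [LinearMap.comp_apply, AlgHom.toLinearMap_apply, ΔQ_rt, map_add, conc_tmul,
        map_mul, h1]
      simp
    · have e : ΔQ (rt ^ 2) = (rt ^ 2) ⊗ₜ[ZMod 3] 1 + (2 : ZMod 3) • (rt ⊗ₜ[ZMod 3] rt)
          + 1 ⊗ₜ[ZMod 3] (rt ^ 2) := by
        rw [map_pow, ΔQ_rt, add_sq, Algebra.TensorProduct.tmul_pow, Algebra.TensorProduct.tmul_pow,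
          mul_assoc, Algebra.TensorProduct.tmul_mul_tmul, one_pow, one_mul, mul_one, two_smul,
          two_mul]
      simp only [LinearMap.comp_apply, AlgHom.toLinearMap_apply, e, map_add, conc_tmul,
        map_mul, h1, map_smul]
      simp only [mh, TensorAlgebra.lift_ι_apply, ml_rt, LinearMap.zero_apply, mul_zero, zero_mul]
      decide
  have h' := LinearMap.congr_fun h a
  simp only [LinearMap.comp_apply, AlgHom.toLinearMap_apply, LinearMap.zero_apply] at h'
  rw [cobarD_ι, map_sub, map_add, map_mul, map_mul, h1]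
  rw [AlgHom.toLinearMap_apply, h']
  simp

lemma mh_cobarD (u : TensorAlgebra (ZMod 3) Q3) : mh (cobarD ΔQ.toLinearMap 1 u) = 0 := by
  induction u using TensorAlgebra.induction with
  | algebraMap r =>
      rw [Algebra.algebraMap_eq_smul_one, map_smul, cobarD_one, smul_zero, map_zero]
  | ι a => exact mh_letter a
  | mul a b ha hb => rw [cobarD_mul, map_add, map_mul, map_mul, ha, hb]; simp
  | add a b ha hb => rw [map_add, map_add, ha, hb, add_zero]

/-- the restriction of the cobar complex to the quotient -/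
lemma tmap_q3 (u : TensorAlgebra (ZMod 3) (MvPolynomial ℕ (ZMod 3))) :
    tmap q3.toLinearMap (cobarD (milnorΔ (ZMod 3)).toLinearMap 1 u)
      = cobarD ΔQ.toLinearMap 1 (tmap q3.toLinearMap u) := by
  have h := tmap_cobarD q3.toLinearMap (milnorΔ (ZMod 3)).toLinearMap ΔQ.toLinearMap 1 (by
    intro a
    have := congrArg (fun f => f a) q3_comp
    simp only [AlgHom.comp_apply] at this
    simp only [AlgHom.toLinearMap_apply]
    rw [← this]
    rfl) u
  rw [AlgHom.toLinearMap_apply q3 1, map_one] at h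
  exact h

/-- `h₀ b₀³` is not a coboundary -/
theorem h0b0_cube_ne {x x2 : TensorAlgebra (ZMod 3) (MvPolynomial ℕ (ZMod 3))}
    (hx : x = TensorAlgebra.ι (ZMod 3) (xi (ZMod 3) 1))
    (hx2 : x2 = TensorAlgebra.ι (ZMod 3) (xi (ZMod 3) 1 ^ 2)) :
    ¬ ∃ c, cobarD (milnorΔ (ZMod 3)).toLinearMap 1 c
      = x * (x * x2 + x2 * x) * (x * x2 + x2 * x) * (x * x2 + x2 * x) := by
  rintro ⟨c, hc⟩
  have h := congrArg (fun t => mh (tmap q3.toLinearMap t)) hc
  simp only [tmap_q3, mh_cobarD, map_mul, map_add, hx, hx2, tmap_ι, AlgHom.toLinearMap_apply,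
    map_pow, q3_xi_one] at h
  simp only [mh, TensorAlgebra.lift_ι_apply, ml_rt, ml_rt2] at h
  revert h
  decide

end Vale.Agent.P236
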