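import Vale.Agent.P236.Main
import Vale.Agent.P236.NonZero
import Vale.Agent.P236.Degree

/-!
P236.  The cobar complex of an `F₃`-coalgebra, the classes `h_i`, `b_j`, and transport of the
results along coalgebra maps.
-/

open TensorProduct

namespace Vale.Agent.P236

/-- `P = F₃[ξ₁, ξ₂, …]`; the variable `X n` is `ξ_{n+1}` -/
abbrev PStar : Type := MvPolynomial ℕ (ZMod 3)

/-- `f` is compatible with the coproducts `ΔB` and `ΔC` -/
def Compatible {B C : Type} [AddCommGroup B] [Module (ZMod 3) B] [AddCommGroup C]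
    [Module (ZMod 3) C] (ΔB : B →ₗ[ZMod 3] B ⊗[ZMod 3] B) (ΔC : C →ₗ[ZMod 3] C ⊗[ZMod 3] C)
    (f : B →ₗ[ZMod 3] C) : Prop :=
  ∀ a, ΔC (f a) = TensorProduct.map f f (ΔB a)

section classes

variable {C : Type} [AddCommGroup C] [Module (ZMod 3) C]

/-- the word `[a]` of length one -/
noncomputable def letter (a : C) : TensorAlgebra (ZMod 3) C := TensorAlgebra.ι (ZMod 3) a

/-- `D` is the differential of the cobar complex of the coalgebra `C` with coproduct `Δ` and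
unit `e`: `D[a] = [e|a] - [Δ a] + [a|e]`, and `D(u v) = (D u) v + (-1)^s u (D v)` if `u` has
degree `s` -/
def IsCobarDiff (Δ : C →ₗ[ZMod 3] C ⊗[ZMod 3] C) (e : C)
    (D : TensorAlgebra (ZMod 3) C →ₗ[ZMod 3] TensorAlgebra (ZMod 3) C) : Prop :=
  (∀ a : C, D (letter a) = letter e * letter a - conc (Δ a) + letter a * letter e) ∧
  ∀ (s : ℕ) (u v : TensorAlgebra (ZMod 3) C), u ∈ cochains (ZMod 3) C s →
    D (u * v) = D u * v + (-1) ^ s * u * D v

/-- `z` is the coboundary of a cochain of degree `s` -/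
def IsBdry (D : TensorAlgebra (ZMod 3) C →ₗ[ZMod 3] TensorAlgebra (ZMod 3) C) (s : ℕ)
    (z : TensorAlgebra (ZMod 3) C) : Prop :=
  ∃ c ∈ cochains (ZMod 3) C s, D c = z

/-- the cochain `h_i = [ξ₁^{3^i}]`; here `f : P → C` tells how `P` maps to the coalgebra `C` -/
noncomputable def hCls (f : PStar →ₗ[ZMod 3] C) (i : ℕ) : TensorAlgebra (ZMod 3) C :=
  letter (f (xi (ZMod 3) 1 ^ 3 ^ i))

/-- the Kervaire cochain
`b_j = ∑_{0 < i < 3} (1/3) (3 choose i) [ξ₁^{i 3^j} | ξ₁^{(3-i) 3^j}]` -/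
noncomputable def bCls (f : PStar →ₗ[ZMod 3] C) (j : ℕ) : TensorAlgebra (ZMod 3) C :=
  ∑ i ∈ Finset.Ioo 0 3, (Nat.choose 3 i / 3) •
    (letter (f (xi (ZMod 3) 1 ^ (i * 3 ^ j))) * letter (f (xi (ZMod 3) 1 ^ ((3 - i) * 3 ^ j))))

lemma bCls_eq (f : PStar →ₗ[ZMod 3] C) (j : ℕ) : bCls f j = tmap f (bb (ZMod 3) j) := by
  have h : Finset.Ioo 0 3 = {1, 2} := by decide
  have h1 : Nat.choose 3 1 / 3 = 1 := by decide
  have h2 : Nat.choose 3 2 / 3 = 1 := by decide
  rw [bCls, h, Finset.sum_pair (by decide), h1, h2, one_smul, one_smul, one_mul,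
    show (3 - 1 : ℕ) = 2 from rfl, show (3 - 2 : ℕ) = 1 from rfl, one_mul, bb, map_add, map_mul,
    map_mul]
  simp only [MData.e, tmap_ι, letter]

lemma hCls_eq (f : PStar →ₗ[ZMod 3] C) (i : ℕ) : hCls f i = tmap f (hh (ZMod 3) i) := by
  rw [hCls, hh, MData.e, tmap_ι, letter]

lemma bCls_mem (f : PStar →ₗ[ZMod 3] C) (j : ℕ) : bCls f j ∈ cochains (ZMod 3) C 2 := by
  refine Submodule.sum_mem _ fun i _ => ?_
  exact Submodule.smul_of_tower_mem _ _ (mul_mem' (ι_mem _) (ι_mem _))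

lemma hCls_mem (f : PStar →ₗ[ZMod 3] C) (j : ℕ) : hCls f j ∈ cochains (ZMod 3) C 1 := ι_mem _

/-- transport of a coboundary -/
lemma transport (Δ : C →ₗ[ZMod 3] C ⊗[ZMod 3] C) (f : PStar →ₗ[ZMod 3] C)
    (hf : ∀ a, Δ (f a) = TensorProduct.map f f (milnorΔ (ZMod 3) a)) {t : TZ}
    (ht : MZ.Null t) : ∃ c, cobarD Δ (f 1) c = tmap f (rho t) := by
  obtain ⟨c, hc⟩ := (null_iff t).1 ht
  refine ⟨tmap f c, ?_⟩
  rw [← hc, MData.d]
  exact (tmap_cobarD f MF.Δ.toLinearMap Δ 1 hf c).symm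

lemma sgn_of_mem {s : ℕ} {u : TensorAlgebra (ZMod 3) C} (hu : u ∈ cochains (ZMod 3) C s) :
    sgn u = (-1) ^ s * u := by
  unfold cochains at hu
  induction hu using Submodule.pow_induction_on_left' with
  | algebraMap r => simp
  | add x y i hx hy ihx ihy => rw [map_add, ihx, ihy, mul_add]
  | mem_mul m hm i x hx ih =>
      obtain ⟨a, rfl⟩ := hm
      rw [map_mul, ih, sgn_ι, pow_succ]
      have : Commute ((-1 : TensorAlgebra (ZMod 3) C) ^ i) (TensorAlgebra.ι (ZMod 3) a) :=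
        (Commute.neg_one_left _).pow_left i
      rw [neg_mul, ← mul_assoc, ← this.eq]
      noncomm_ring

lemma isCobarDiff_cobarD (Δ : C →ₗ[ZMod 3] C ⊗[ZMod 3] C) (e : C) :
    IsCobarDiff Δ e (cobarD Δ e) := by
  refine ⟨fun a => ?_, fun s u v hu => ?_⟩
  · rw [letter, cobarD_ι, letter]; abel
  · rw [cobarD_mul, sgn_of_mem hu]

lemma IsCobarDiff.eq {Δ : C →ₗ[ZMod 3] C ⊗[ZMod 3] C} {e : C}
    {D : TensorAlgebra (ZMod 3) C →ₗ[ZMod 3] TensorAlgebra (ZMod 3) C}
    (hD : IsCobarDiff Δ e D) : D = cobarD Δ e := by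
  obtain ⟨h1, h2⟩ := hD
  obtain ⟨h3, h4⟩ := isCobarDiff_cobarD Δ e
  have hone : D 1 = 0 := by
    have h := h2 0 1 1 (by rw [cochains, pow_zero]; exact Submodule.one_le.mp le_rfl)
    rw [mul_one, pow_zero, one_mul, mul_one, one_mul] at h
    exact left_eq_add.mp h
  have key : ∀ (s : ℕ) (u : TensorAlgebra (ZMod 3) C), u ∈ cochains (ZMod 3) C s →
      D u = cobarD Δ e u := by
    intro s u hu
    unfold cochains at hu
    induction hu using Submodule.pow_induction_on_left' with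
    | algebraMap r =>
        rw [Algebra.algebraMap_eq_smul_one, map_smul, map_smul, cobarD_one, hone]
    | add x y i hx hy ihx ihy => rw [map_add, map_add, ihx, ihy]
    | mem_mul m hm i x hx ih =>
        obtain ⟨a, rfl⟩ := hm
        rw [h2 1 _ x (ι_mem a), h4 1 _ x (ι_mem a), ih]
        have := h1 a
        have h' := h3 a
        rw [letter] at this h'
        rw [this, h']
  let _ := gradedCochains (ZMod 3) C
  apply LinearMap.ext
  intro u
  induction u using DirectSum.Decomposition.inductionOn (cochains (ZMod 3) C) with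
  | zero => rw [map_zero, map_zero]
  | add a b ha hb => rw [map_add, map_add, ha, hb]
  | @homogeneous i m => exact key i m m.2

lemma existsUnique_cobarDiff (Δ : C →ₗ[ZMod 3] C ⊗[ZMod 3] C) (e : C) :
    ∃! D, IsCobarDiff Δ e D :=
  ⟨cobarD Δ e, isCobarDiff_cobarD Δ e, fun _ h => h.eq⟩

end classes

end Vale.Agent.P236
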