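import Mathlib

/-!
P236.  The cobar complex of a (coaugmented) coalgebra, and Milnor's coproduct on
`k[ξ₁, ξ₂, …]` at the prime `3`.
-/

open TensorProduct

namespace Vale.Agent.P236

section general

variable {k C : Type*} [CommRing k] [AddCommGroup C] [Module k C]

/-- concatenation `a ⊗ b ↦ [a | b]` -/
noncomputable def conc : C ⊗[k] C →ₗ[k] TensorAlgebra k C :=
  (LinearMap.mul' k (TensorAlgebra k C)) ∘ₗ
    (TensorProduct.map (TensorAlgebra.ι k) (TensorAlgebra.ι k))

@[simp] lemma conc_tmul (a b : C) :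
    conc (k := k) (a ⊗ₜ[k] b) = TensorAlgebra.ι k a * TensorAlgebra.ι k b := by
  simp [conc]

/-- the cobar differential on a word `[a]` of length one: `[e|a] + [a|e] - [Δ a]` -/
noncomputable def letterD (Δ : C →ₗ[k] C ⊗[k] C) (e : C) : C →ₗ[k] TensorAlgebra k C :=
  (LinearMap.mulLeft k (TensorAlgebra.ι k e)) ∘ₗ (TensorAlgebra.ι k)
    + (LinearMap.mulRight k (TensorAlgebra.ι k e)) ∘ₗ (TensorAlgebra.ι k) - conc ∘ₗ Δ

@[simp] lemma letterD_apply (Δ : C →ₗ[k] C ⊗[k] C) (e a : C) :
    letterD Δ e a = TensorAlgebra.ι k e * TensorAlgebra.ι k a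
      + TensorAlgebra.ι k a * TensorAlgebra.ι k e - conc (Δ a) := by
  simp [letterD]

/-- the sign automorphism `(-1)^n` on words of length `n` -/
noncomputable def sgn : TensorAlgebra k C →ₐ[k] TensorAlgebra k C :=
  TensorAlgebra.lift k (-(TensorAlgebra.ι k))

@[simp] lemma sgn_ι (a : C) : sgn (k := k) (TensorAlgebra.ι k a) = - TensorAlgebra.ι k a := by
  simp [sgn]

/-- auxiliary linear map into `2 × 2` matrices -/
noncomputable def matLin (Δ : C →ₗ[k] C ⊗[k] C) (e : C) :
    C →ₗ[k] Matrix (Fin 2) (Fin 2) (TensorAlgebra k C) where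
  toFun a := !![-(TensorAlgebra.ι k a), letterD Δ e a; 0, TensorAlgebra.ι k a]
  map_add' a b := by
    ext i j; fin_cases i <;> fin_cases j <;>
      simp only [map_add, Matrix.add_apply, Matrix.of_apply, Matrix.cons_val', Matrix.cons_val_zero,
        Matrix.cons_val_one, Fin.zero_eta, Fin.mk_one, Fin.isValue, Matrix.cons_val_fin_one,
        neg_add, add_zero]
  map_smul' r a := by
    ext i j; fin_cases i <;> fin_cases j <;>
      simp only [map_smul, Matrix.smul_apply, Matrix.of_apply, Matrix.cons_val',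
        Matrix.cons_val_zero, Matrix.cons_val_one, Fin.zero_eta, Fin.mk_one, Fin.isValue,
        Matrix.cons_val_fin_one, smul_neg, smul_zero, RingHom.id_apply]

/-- the algebra map `u ↦ (sgn u, d u; 0, u)` -/
noncomputable def matHom (Δ : C →ₗ[k] C ⊗[k] C) (e : C) :
    TensorAlgebra k C →ₐ[k] Matrix (Fin 2) (Fin 2) (TensorAlgebra k C) :=
  TensorAlgebra.lift k (matLin Δ e)

/-- **The differential of the (unnormalised) cobar complex** of a coalgebra `(C, Δ)` with
coaugmentation `e = 1 ∈ C`.  The cobar complex is the tensor algebra on `C` (a word `[a₁|…|aₛ]`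
is the product of the letters, in cohomological degree `s`), with the derivation determined by
`d [a] = [e|a] - [Δ a] + [a|e]` and `d (u v) = (d u) v + (-1)^{|u|} u (d v)`
(see `cobarD_ι`, `cobarD_mul`). -/
noncomputable def cobarD (Δ : C →ₗ[k] C ⊗[k] C) (e : C) :
    TensorAlgebra k C →ₗ[k] TensorAlgebra k C :=
  (LinearMap.proj (1 : Fin 2) ∘ₗ LinearMap.proj (R := k) (ι := Fin 2)
    (φ := fun _ => Fin 2 → TensorAlgebra k C) (0 : Fin 2)) ∘ₗ (matHom Δ e).toLinearMap

lemma cobarD_def (Δ : C →ₗ[k] C ⊗[k] C) (e : C) (u : TensorAlgebra k C) :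
    cobarD Δ e u = matHom Δ e u 0 1 := rfl

lemma matHom_ι (Δ : C →ₗ[k] C ⊗[k] C) (e a : C) :
    matHom Δ e (TensorAlgebra.ι k a)
      = !![-(TensorAlgebra.ι k a), letterD Δ e a; 0, TensorAlgebra.ι k a] := by
  simp only [matHom, TensorAlgebra.lift_ι_apply]; rfl

@[simp] lemma cobarD_ι (Δ : C →ₗ[k] C ⊗[k] C) (e a : C) :
    cobarD Δ e (TensorAlgebra.ι k a) = TensorAlgebra.ι k e * TensorAlgebra.ι k a
      + TensorAlgebra.ι k a * TensorAlgebra.ι k e - conc (Δ a) := by
  rw [cobarD_def, matHom_ι, ← letterD_apply]; rfl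

lemma matHom_apply (Δ : C →ₗ[k] C ⊗[k] C) (e : C) (u : TensorAlgebra k C) :
    matHom Δ e u = !![sgn u, cobarD Δ e u; 0, u] := by
  have h10 : ∀ u, matHom Δ e u 1 0 = 0 := by
    intro u
    induction u using TensorAlgebra.induction with
    | algebraMap r => simp [Matrix.algebraMap_matrix_apply]
    | ι a => rw [matHom_ι]; rfl
    | mul a b ha hb => simp [Matrix.mul_apply, Fin.sum_univ_two, ha, hb]
    | add a b ha hb => simp [ha, hb]
  have h11 : ∀ u, matHom Δ e u 1 1 = u := by
    intro u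
    induction u using TensorAlgebra.induction with
    | algebraMap r => simp [Matrix.algebraMap_matrix_apply]
    | ι a => rw [matHom_ι]; rfl
    | mul a b ha hb => simp [Matrix.mul_apply, Fin.sum_univ_two, ha, hb, h10]
    | add a b ha hb => simp [ha, hb]
  have h00 : ∀ u, matHom Δ e u 0 0 = sgn u := by
    intro u
    induction u using TensorAlgebra.induction with
    | algebraMap r => simp [Matrix.algebraMap_matrix_apply]
    | ι a => rw [matHom_ι, sgn_ι]; rfl
    | mul a b ha hb => simp [Matrix.mul_apply, Fin.sum_univ_two, ha, hb, h10]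
    | add a b ha hb => simp [ha, hb]
  ext i j
  fin_cases i <;> fin_cases j
  · simpa using h00 u
  · simp [cobarD_def]
  · simpa using h10 u
  · simpa using h11 u

lemma cobarD_mul (Δ : C →ₗ[k] C ⊗[k] C) (e : C) (u v : TensorAlgebra k C) :
    cobarD Δ e (u * v) = cobarD Δ e u * v + sgn u * cobarD Δ e v := by
  rw [cobarD_def, map_mul, Matrix.mul_apply, Fin.sum_univ_two, matHom_apply Δ e u,
    matHom_apply Δ e v]
  simp [add_comm]

@[simp] lemma cobarD_one (Δ : C →ₗ[k] C ⊗[k] C) (e : C) :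
    cobarD Δ e (1 : TensorAlgebra k C) = 0 := by
  rw [cobarD_def, map_one]; simp

@[simp] lemma sgn_sgn (u : TensorAlgebra k C) : sgn (sgn u) = u := by
  induction u using TensorAlgebra.induction with
  | algebraMap r => simp
  | ι a => simp
  | mul a b ha hb => simp [ha, hb]
  | add a b ha hb => simp [ha, hb]

@[simp] lemma sgn_conc (z : C ⊗[k] C) : sgn (conc (k := k) z) = conc z := by
  induction z using TensorProduct.induction_on with
  | zero => simp
  | tmul a b => simp
  | add a b ha hb => simp [ha, hb]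

lemma cobarD_sgn (Δ : C →ₗ[k] C ⊗[k] C) (e : C) (u : TensorAlgebra k C) :
    cobarD Δ e (sgn u) = - sgn (cobarD Δ e u) := by
  induction u using TensorAlgebra.induction with
  | algebraMap r =>
      have h : ∀ r : k, cobarD Δ e (algebraMap k (TensorAlgebra k C) r) = 0 := fun r => by
        rw [Algebra.algebraMap_eq_smul_one, map_smul, cobarD_one, smul_zero]
      simp [h]
  | ι a => simp
  | mul a b ha hb => simp [cobarD_mul, ha, hb, add_comm]
  | add a b ha hb => simp [ha, hb, add_comm]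

end general

/-- Milnor's generator `ξ_n`, with `ξ_0 = 1`, in `k[ξ₁, ξ₂, …]` (`ξ_{n+1}` is the variable `X n`) -/
noncomputable def xi (k : Type*) [CommRing k] : ℕ → MvPolynomial ℕ k
  | 0 => 1
  | n + 1 => MvPolynomial.X n

/-- Milnor's coproduct at the prime `3`: the ring map with
`Δ ξ_n = ∑_{a+b=n} ξ_a^{3^b} ⊗ ξ_b`. -/
noncomputable def milnorΔ (k : Type*) [CommRing k] :
    MvPolynomial ℕ k →ₐ[k] MvPolynomial ℕ k ⊗[k] MvPolynomial ℕ k :=
  MvPolynomial.aeval fun n =>
    ∑ p ∈ Finset.HasAntidiagonal.antidiagonal (n + 1), (xi k p.1 ^ 3 ^ p.2) ⊗ₜ[k] xi k p.2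

end Vale.Agent.P236
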