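import Vale.Agent.P236.Letters

/-!
P236.  Explicit cochains (generated coefficients), in characteristic three.
-/

set_option linter.unusedSimpArgs false
set_option linter.unusedVariables false

open TensorProduct

namespace Vale.Agent.P236

namespace MData

variable {k P : Type*} [CommRing k] [CommRing P] [Algebra k P] {M : MData k P}
variable {x y w x3 x9 y3 : P}

/-- `b₀ = [x|x²] + [x²|x]` -/
noncomputable def B0 (k : Type*) {P : Type*} [CommRing k] [CommRing P] [Algebra k P] (x : P) :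
    TensorAlgebra k P := (e k x) * (e k (x ^ 2)) + (e k (x ^ 2)) * (e k x)

/-- `g₀ = [y|x] - [x³|x²]` -/
noncomputable def G0 (k : Type*) {P : Type*} [CommRing k] [CommRing P] [Algebra k P]
    (x y x3 : P) : TensorAlgebra k P := (e k y) * (e k x) - (e k x3) * (e k (x ^ 2))

/-- `g₁ = [y³|x³] - [x⁹|x⁶]` -/
noncomputable def G1 (k : Type*) {P : Type*} [CommRing k] [CommRing P] [Algebra k P]
    (x3 x9 y3 : P) : TensorAlgebra k P := (e k y3) * (e k x3) - (e k x9) * (e k (x3 ^ 2))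

noncomputable def C3 (k : Type*) {P : Type*} [CommRing k] [CommRing P] [Algebra k P]
    (x y x3 : P) : TensorAlgebra k P := (e k y) * (e k (x3 * x)) + (e k (x3 * y)) * (e k x) - (e k x3) * (e k (x3 * x ^ 2)) - (e k (x3 ^ 2)) * (e k (x ^ 2))

noncomputable def C9 (k : Type*) {P : Type*} [CommRing k] [CommRing P] [Algebra k P]
    (x y x3 x9 : P) : TensorAlgebra k P := (e k y) * (e k (x9 * x)) + (e k (x9 * y)) * (e k x) - (e k x3) * (e k (x9 * x ^ 2)) - (e k (x3 * x9)) * (e k (x ^ 2))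

noncomputable def CY (k : Type*) {P : Type*} [CommRing k] [CommRing P] [Algebra k P]
    (x y x3 x9 y3 : P) : TensorAlgebra k P := (e k y) * (e k (y3 * x)) + (e k (y3 * y)) * (e k x) + (e k (x9 * y)) * (e k (x3 * x)) - (e k x3) * (e k (y3 * x ^ 2)) - (e k (x3 * y3)) * (e k (x ^ 2)) - (e k (x3 * x9)) * (e k (x3 * x ^ 2))

noncomputable def VV (k : Type*) {P : Type*} [CommRing k] [CommRing P] [Algebra k P]
    (x y x3 : P) : TensorAlgebra k P := (e k y) * (e k (x * y)) + (e k (x3 * y)) * (e k (x ^ 2)) - (e k x3) * (e k (x3 ^ 2)) - (e k x3) * (e k (x ^ 2 * y)) - (e k (y ^ 2)) * (e k x)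

lemma sgn_e (a : P) : sgn (e k a) = - e k a := sgn_ι a

lemma dB0 (H : Six M x y w x3 x9 y3) : M.d (B0 k x) = 0 := by
  simp only [B0, map_add, map_sub, map_neg, M.d_mul, sgn_e, map_mul, dC H, dB H, dA H, dAC H, dAB H, dA2 H, dW H, dY H, dCY H, dBY H, dAY H, dY2 H, dX H, dCX H, dBX H, dAX H, dXY H, dX2 H, dCX2 H, dBX2 H, dAX2 H, dX2Y H]
  noncomm_ring

lemma dG0 (H : Six M x y w x3 x9 y3) :
    M.d (G0 k x y x3) = 3 • (-((e k x3) * (e k x) * (e k x))) := by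
  simp only [G0, map_add, map_sub, map_neg, M.d_mul, sgn_e, map_mul, dC H, dB H, dA H, dAC H, dAB H, dA2 H, dW H, dY H, dCY H, dBY H, dAY H, dY2 H, dX H, dCX H, dBX H, dAX H, dXY H, dX2 H, dCX2 H, dBX2 H, dAX2 H, dX2Y H]
  noncomm_ring

lemma dU (H : Six M x y w x3 x9 y3) :
    M.d (e k y * e k (x ^ 2)) = - (e k x3 * B0 k x) - G0 k x y x3 * e k x
      + 3 • ((e k y) * (e k x) * (e k x)) := by
  simp only [B0, G0, map_add, map_sub, map_neg, M.d_mul, sgn_e, map_mul, dC H, dB H, dA H, dAC H, dAB H, dA2 H, dW H, dY H, dCY H, dBY H, dAY H, dY2 H, dX H, dCX H, dBX H, dAX H, dXY H, dX2 H, dCX2 H, dBX2 H, dAX2 H, dX2Y H]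
  noncomm_ring

lemma dC3 (H : Six M x y w x3 x9 y3) :
    M.d (C3 k x y x3) = G0 k x y x3 * e k x3 - e k x3 * G0 k x y x3
      + 3 • (-((e k x3) * (e k x) * (e k (x3 * x))) - (e k x3) * (e k (x3 * x)) * (e k x) - (e k (x3 ^ 2)) * (e k x) * (e k x)) := by
  simp only [C3, G0, map_add, map_sub, map_neg, M.d_mul, sgn_e, map_mul, dC H, dB H, dA H, dAC H, dAB H, dA2 H, dW H, dY H, dCY H, dBY H, dAY H, dY2 H, dX H, dCX H, dBX H, dAX H, dXY H, dX2 H, dCX2 H, dBX2 H, dAX2 H, dX2Y H]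
  noncomm_ring

lemma dC9 (H : Six M x y w x3 x9 y3) :
    M.d (C9 k x y x3 x9) = G0 k x y x3 * e k x9 - e k x9 * G0 k x y x3
      + 3 • (-((e k x3) * (e k x) * (e k (x9 * x))) - (e k x3) * (e k (x9 * x)) * (e k x) - (e k (x3 * x9)) * (e k x) * (e k x)) := by
  simp only [C9, G0, map_add, map_sub, map_neg, M.d_mul, sgn_e, map_mul, dC H, dB H, dA H, dAC H, dAB H, dA2 H, dW H, dY H, dCY H, dBY H, dAY H, dY2 H, dX H, dCX H, dBX H, dAX H, dXY H, dX2 H, dCX2 H, dBX2 H, dAX2 H, dX2Y H]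
  noncomm_ring

lemma dCYt (H : Six M x y w x3 x9 y3) :
    M.d (CY k x y x3 x9 y3) = G0 k x y x3 * e k y3 - e k y3 * G0 k x y x3
      + C9 k x y x3 x9 * e k x3 - e k x9 * C3 k x y x3
      + 3 • (-((e k x3) * (e k x) * (e k (y3 * x))) - (e k x3) * (e k (y3 * x)) * (e k x) - (e k x3) * (e k (x9 * x)) * (e k (x3 * x)) - (e k (x3 * y3)) * (e k x) * (e k x) - (e k (x3 * x9)) * (e k x) * (e k (x3 * x)) - (e k (x3 * x9)) * (e k (x3 * x)) * (e k x)) := by
  simp only [CY, C9, C3, G0, map_add, map_sub, map_neg, M.d_mul, sgn_e, map_mul, dC H, dB H, dA H, dAC H, dAB H, dA2 H, dW H, dY H, dCY H, dBY H, dAY H, dY2 H, dX H, dCX H, dBX H, dAX H, dXY H, dX2 H, dCX2 H, dBX2 H, dAX2 H, dX2Y H]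
  noncomm_ring

lemma dVV (H : Six M x y w x3 x9 y3) :
    M.d (VV k x y x3) = e k x3 * e k y * e k (x ^ 2) - e k (x3 ^ 2) * B0 k x
      + C3 k x y x3 * e k x + G0 k x y x3 * e k y
      - 3 • ((e k x3) * (e k x3) * (e k x3) + (e k x3) * (e k y) * (e k (x ^ 2)) + (e k x3) * (e k x) * (e k (x * y)) + (e k x3) * (e k (x3 * x)) * (e k (x ^ 2)) - (e k (x3 ^ 2)) * (e k (x ^ 2)) * (e k x) - (e k y) * (e k y) * (e k x) - (e k (x3 * y)) * (e k x) * (e k x)) := by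
  simp only [VV, B0, C3, G0, map_add, map_sub, map_neg, M.d_mul, sgn_e, map_mul, dC H, dB H, dA H, dAC H, dAB H, dA2 H, dW H, dY H, dCY H, dBY H, dAY H, dY2 H, dX H, dCX H, dBX H, dAX H, dXY H, dX2 H, dCX2 H, dBX2 H, dAX2 H, dX2Y H]
  noncomm_ring

lemma sgn_two (a b : P) : sgn (e k a * e k b) = e k a * e k b := by
  rw [map_mul, sgn_e, sgn_e]; noncomm_ring

/-- `g₁ b₀` is a coboundary in characteristic three -/
theorem g1b0 (H : Six M x y w x3 x9 y3) (h3 : ∀ t : TensorAlgebra k P, 3 • t = 0) :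
    ∃ z, M.d z = G1 k x3 x9 y3 * B0 k x := by
  refine ⟨e k y3 * (e k y * e k (x ^ 2)) - e k x9 * VV k x y x3 + CY k x y x3 x9 y3 * e k x
    + C9 k x y x3 x9 * e k y + G0 k x y x3 * e k w, ?_⟩
  have s1 : sgn (CY k x y x3 x9 y3) = CY k x y x3 x9 y3 := by
    simp only [CY, map_add, map_sub, sgn_two]
  have s2 : sgn (C9 k x y x3 x9) = C9 k x y x3 x9 := by
    simp only [C9, map_add, map_sub, sgn_two]
  have s3 : sgn (G0 k x y x3) = G0 k x y x3 := by
    simp only [G0, map_add, map_sub, sgn_two]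
  simp only [map_add, map_sub, M.d_mul (e k y3), M.d_mul (e k x9), M.d_mul (CY k x y x3 x9 y3),
    M.d_mul (C9 k x y x3 x9), M.d_mul (G0 k x y x3), sgn_e, s1, s2, s3, dVV H, dCYt H, dC9 H,
    dG0 H, dU H, h3, add_zero, sub_zero, dC H, dB H, dX H, dY H, dW H]
  simp only [G1]
  noncomm_ring

end MData

end Vale.Agent.P236
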