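import Vale.Agent.P236.Lift

/-!
P236.  Milnor's coproduct over a ring `k` (think of `k = ℤ`): it is compatible with `ξ_i ↦ ξ_i³`
modulo `3`, and coassociative modulo `9` (modulo `27`) on the image of that map (of its square).
The statements are proved for an abstract algebra `P` with the formal properties of
`k[ξ₁, ξ₂, …]`.
-/

open TensorProduct
open Finset.HasAntidiagonal (antidiagonal mem_antidiagonal)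

namespace Vale.Agent.P236

/-- the formal properties of `k[ξ₁, ξ₂, …]` with Milnor's coproduct and `ψ : ξ_i ↦ ξ_i³` -/
structure MData (k P : Type*) [CommRing k] [CommRing P] [Algebra k P] where
  Δ : P →ₐ[k] P ⊗[k] P
  ψ : P →ₐ[k] P
  ξ : ℕ → P
  gen : Algebra.adjoin k (Set.range ξ) = ⊤
  ξ0 : ξ 0 = 1
  Δξ : ∀ m, Δ (ξ m) = ∑ p ∈ antidiagonal m, (ξ p.1 ^ 3 ^ p.2) ⊗ₜ[k] ξ p.2
  ψξ : ∀ m, ψ (ξ m) = ξ m ^ 3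

lemma Dv.pow_sum {A ι : Type*} [CommRing A] (S : Finset ι) (f : ι → A) (b : ℕ) :
    Dv 3 ((∑ i ∈ S, f i) ^ 3 ^ b - ∑ i ∈ S, f i ^ 3 ^ b) := by
  induction b with
  | zero => simpa using Dv.zero
  | succ b ih =>
      have h1 : Dv 3 (((∑ i ∈ S, f i) ^ 3 ^ b) ^ 3 - (∑ i ∈ S, f i ^ 3 ^ b) ^ 3) := by
        obtain ⟨u, hu⟩ := Dv.cube (k := 0) (by simpa using ih)
        exact ⟨3 * u, by rw [hu]; simp only [nsmul_eq_mul]; push_cast; ring⟩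
      have h2 := Dv.cube_sum S (fun i => f i ^ 3 ^ b)
      have := h1.add h2
      simp only [← pow_mul, ← pow_succ] at this
      simpa using this

namespace MData

variable {k P : Type*} [CommRing k] [CommRing P] [Algebra k P] (M : MData k P)

/-- `ψ ⊗ ψ` -/
noncomputable def ψψ : P ⊗[k] P →ₐ[k] P ⊗[k] P := Algebra.TensorProduct.map M.ψ M.ψ

/-- `(Δ ⊗ 1) Δ` -/
noncomputable def LΔ : P →ₐ[k] (P ⊗[k] P) ⊗[k] P :=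
  (Algebra.TensorProduct.map M.Δ (AlgHom.id k P)).comp M.Δ

/-- `(1 ⊗ Δ) Δ` -/
noncomputable def RΔ : P →ₐ[k] (P ⊗[k] P) ⊗[k] P :=
  ((Algebra.TensorProduct.assoc k k k P P P).symm.toAlgHom.comp
    (Algebra.TensorProduct.map (AlgHom.id k P) M.Δ)).comp M.Δ

/-- mod `3`: the coproduct commutes with `ψ` -/
lemma dvψ (a : P) : Dv 3 (M.Δ (M.ψ a) - M.ψψ (M.Δ a)) := by
  refine Dv.of_gens M.gen (M.Δ.comp M.ψ) (M.ψψ.comp M.Δ) ?_ a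
  rintro _ ⟨n, rfl⟩
  have h1 : (M.Δ.comp M.ψ) (M.ξ n) = (M.Δ (M.ξ n)) ^ 3 := by
    rw [AlgHom.comp_apply, M.ψξ, map_pow]
  have h2 : (M.ψψ.comp M.Δ) (M.ξ n) =
      ∑ p ∈ antidiagonal n, ((M.ξ p.1 ^ 3 ^ p.2) ⊗ₜ[k] M.ξ p.2) ^ 3 := by
    rw [AlgHom.comp_apply, M.Δξ, map_sum]
    refine Finset.sum_congr rfl fun p _ => ?_
    rw [ψψ, Algebra.TensorProduct.map_tmul, map_pow, M.ψξ, M.ψξ, Algebra.TensorProduct.tmul_pow,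
      ← pow_mul, ← pow_mul, mul_comm 3]
  rw [h1, h2, M.Δξ]
  exact Dv.cube_sum _ _

/-- mod `9`: the coproduct commutes with `ψ` on the image of `ψ` -/
lemma dvψψ (a : P) : Dv 9 (M.Δ (M.ψ (M.ψ a)) - M.ψψ (M.Δ (M.ψ a))) := by
  refine Dv.of_gens M.gen ((M.Δ.comp M.ψ).comp M.ψ) ((M.ψψ.comp M.Δ).comp M.ψ) ?_ a
  rintro _ ⟨n, rfl⟩
  have h : Dv (3 ^ 2) (M.Δ (M.ψ (M.ξ n)) ^ 3 - M.ψψ (M.Δ (M.ξ n)) ^ 3) :=
    Dv.cube (k := 0) (M.dvψ (M.ξ n))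
  have e1 : ((M.Δ.comp M.ψ).comp M.ψ) (M.ξ n) = M.Δ (M.ψ (M.ξ n)) ^ 3 := by
    simp [M.ψξ]
  have e2 : ((M.ψψ.comp M.Δ).comp M.ψ) (M.ξ n) = (M.ψψ (M.Δ (M.ξ n))) ^ 3 := by
    simp [M.ψξ]
  rw [e1, e2]
  exact h

/-- coassociativity mod `3` on the generators -/
lemma coassoc_three (m : ℕ) : Dv 3 (M.LΔ (M.ξ m) - M.RΔ (M.ξ m)) := by
  have hL : M.LΔ (M.ξ m) = ∑ p ∈ antidiagonal m, (M.Δ (M.ξ p.1) ^ 3 ^ p.2) ⊗ₜ[k] M.ξ p.2 := by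
    rw [LΔ, AlgHom.comp_apply, M.Δξ, map_sum]
    simp only [Algebra.TensorProduct.map_tmul, map_pow, AlgHom.id_apply]
  have hR : M.RΔ (M.ξ m) = ∑ p ∈ antidiagonal m, ∑ q ∈ antidiagonal p.2,
        ((M.ξ p.1 ^ 3 ^ p.2) ⊗ₜ[k] (M.ξ q.1 ^ 3 ^ q.2)) ⊗ₜ[k] M.ξ q.2 := by
    rw [RΔ, AlgHom.comp_apply, M.Δξ, map_sum]
    simp only [AlgHom.comp_apply, Algebra.TensorProduct.map_tmul, map_pow,
      AlgHom.id_apply, M.Δξ, TensorProduct.tmul_sum, map_sum]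
    rfl
  have hM : ∑ p ∈ antidiagonal m, (∑ q ∈ antidiagonal p.1,
        ((M.ξ q.1 ^ 3 ^ q.2) ⊗ₜ[k] M.ξ q.2) ^ 3 ^ p.2) ⊗ₜ[k] M.ξ p.2 = M.RΔ (M.ξ m) := by
    rw [hR]
    simp only [TensorProduct.sum_tmul, Algebra.TensorProduct.tmul_pow, ← pow_mul]
    rw [Finset.sum_sigma', Finset.sum_sigma']
    refine Finset.sum_nbij' (fun x => ⟨(x.2.1, x.2.2 + x.1.2), (x.2.2, x.1.2)⟩)
      (fun x => ⟨(x.1.1 + x.2.1, x.2.2), (x.1.1, x.2.1)⟩) ?_ ?_ ?_ ?_ ?_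
    · rintro ⟨⟨a, b⟩, ⟨c, d⟩⟩ h
      simp only [Finset.mem_sigma, mem_antidiagonal] at h ⊢
      obtain ⟨h1, h2⟩ := h
      refine ⟨?_, trivial⟩
      omega
    · rintro ⟨⟨a, b⟩, ⟨c, d⟩⟩ h
      simp only [Finset.mem_sigma, mem_antidiagonal] at h ⊢
      obtain ⟨h1, h2⟩ := h
      refine ⟨?_, trivial⟩
      omega
    · rintro ⟨⟨a, b⟩, ⟨c, d⟩⟩ h
      simp only [Finset.mem_sigma, mem_antidiagonal] at h ⊢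
      obtain ⟨h1, rfl⟩ := h
      rfl
    · rintro ⟨⟨a, b⟩, ⟨c, d⟩⟩ h
      simp only [Finset.mem_sigma, mem_antidiagonal] at h ⊢
      obtain ⟨h1, rfl⟩ := h
      rfl
    · rintro ⟨⟨a, b⟩, ⟨c, d⟩⟩ h
      simp only [pow_add]
  rw [← hM, hL]
  refine Dv.sum_sub _ _ _ fun p _ => ?_
  rw [M.Δξ]
  obtain ⟨u, hu⟩ := Dv.pow_sum (antidiagonal p.1)
    (fun q : ℕ × ℕ => (M.ξ q.1 ^ 3 ^ q.2) ⊗ₜ[k] M.ξ q.2) p.2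
  exact ⟨u ⊗ₜ M.ξ p.2, by rw [← TensorProduct.sub_tmul, hu, TensorProduct.smul_tmul']⟩

/-- coassociativity mod `9` on the image of `ψ` -/
lemma coassoc_nine (a : P) : Dv 9 (M.LΔ (M.ψ a) - M.RΔ (M.ψ a)) := by
  refine Dv.of_gens M.gen (M.LΔ.comp M.ψ) (M.RΔ.comp M.ψ) ?_ a
  rintro _ ⟨n, rfl⟩
  have h : Dv (3 ^ 2) (M.LΔ (M.ξ n) ^ 3 - M.RΔ (M.ξ n) ^ 3) :=
    Dv.cube (k := 0) (M.coassoc_three n)
  have e1 : (M.LΔ.comp M.ψ) (M.ξ n) = M.LΔ (M.ξ n) ^ 3 := by simp [M.ψξ]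
  have e2 : (M.RΔ.comp M.ψ) (M.ξ n) = M.RΔ (M.ξ n) ^ 3 := by simp [M.ψξ]
  rw [e1, e2]
  exact h

/-- coassociativity mod `27` on the image of `ψ²` -/
lemma coassoc_twentyseven (a : P) : Dv 27 (M.LΔ (M.ψ (M.ψ a)) - M.RΔ (M.ψ (M.ψ a))) := by
  refine Dv.of_gens M.gen ((M.LΔ.comp M.ψ).comp M.ψ) ((M.RΔ.comp M.ψ).comp M.ψ) ?_ a
  rintro _ ⟨n, rfl⟩
  have h : Dv (3 ^ 3) (M.LΔ (M.ψ (M.ξ n)) ^ 3 - M.RΔ (M.ψ (M.ξ n)) ^ 3) :=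
    Dv.cube (k := 1) (M.coassoc_nine (M.ξ n))
  have e1 : ((M.LΔ.comp M.ψ).comp M.ψ) (M.ξ n) = M.LΔ (M.ψ (M.ξ n)) ^ 3 := by simp [M.ψξ]
  have e2 : ((M.RΔ.comp M.ψ).comp M.ψ) (M.ξ n) = M.RΔ (M.ψ (M.ξ n)) ^ 3 := by simp [M.ψξ]
  rw [e1, e2]
  exact h

end MData

end Vale.Agent.P236
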