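import Vale.Agent.P236.Congr

/-!
P236.  The differential `d` of the (lifted) cobar complex and `Ψ` (`ξ_i ↦ ξ_i³` on all letters):
`d Ψ ≡ Ψ d (3)`, `d d Ψ ≡ 0 (9)`, `d Ψ Ψ ≡ Ψ d Ψ (9)`, `d d Ψ Ψ ≡ 0 (27)`.
-/

open TensorProduct

namespace Vale.Agent.P236

namespace MData

variable {k P : Type*} [CommRing k] [CommRing P] [Algebra k P] (M : MData k P)

/-- the differential -/
noncomputable def d : TensorAlgebra k P →ₗ[k] TensorAlgebra k P := cobarD M.Δ.toLinearMap 1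

/-- `ψ` on all letters -/
noncomputable def Ψ : TensorAlgebra k P →ₐ[k] TensorAlgebra k P := tmap M.ψ.toLinearMap

lemma d_mul (u v : TensorAlgebra k P) : M.d (u * v) = M.d u * v + sgn u * M.d v :=
  cobarD_mul _ _ _ _

lemma d_one : M.d 1 = 0 := cobarD_one _ _

lemma d_algebraMap (r : k) : M.d (algebraMap k _ r) = 0 := by
  rw [Algebra.algebraMap_eq_smul_one, map_smul, M.d_one, smul_zero]

lemma d_sgn (u : TensorAlgebra k P) : M.d (sgn u) = - sgn (M.d u) := cobarD_sgn _ _ _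

lemma d_ι (a : P) : M.d (TensorAlgebra.ι k a) = TensorAlgebra.ι k (1 : P) * TensorAlgebra.ι k a
      + TensorAlgebra.ι k a * TensorAlgebra.ι k 1 - conc (M.Δ a) := by
  rw [d, cobarD_ι]; rfl

lemma dd_mul (u v : TensorAlgebra k P) :
    M.d (M.d (u * v)) = M.d (M.d u) * v + u * M.d (M.d v) := cobarD_cobarD_mul _ _ _ _

lemma Ψ_ι (a : P) : M.Ψ (TensorAlgebra.ι k a) = TensorAlgebra.ι k (M.ψ a) := by
  rw [Ψ, tmap_ι]; rfl

lemma Ψ_sgn (u : TensorAlgebra k P) : M.Ψ (sgn u) = sgn (M.Ψ u) := tmap_sgn _ _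

lemma Ψ_conc (z : P ⊗[k] P) : M.Ψ (conc z) = conc (M.ψψ z) := by
  rw [Ψ, tmap_conc]; rfl

lemma dd_ι (a : P) : M.d (M.d (TensorAlgebra.ι k a)) = conc3 (M.LΔ a) - conc3 (M.RΔ a) := by
  have h := cobarD_cobarD_ι M.Δ.toLinearMap (1 : P) a (by simp [Algebra.TensorProduct.one_def])
  rw [d, h]
  rfl

lemma dv_conc {n : ℕ} {z : P ⊗[k] P} (h : Dv n z) : Dv n (conc (k := k) z) := by
  obtain ⟨u, rfl⟩ := h; exact ⟨conc u, map_nsmul _ _ _⟩

lemma dv_conc3 {n : ℕ} {z : (P ⊗[k] P) ⊗[k] P} (h : Dv n z) : Dv n (conc3 (k := k) z) := by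
  obtain ⟨u, rfl⟩ := h; exact ⟨conc3 u, map_nsmul _ _ _⟩

lemma dv_d {n : ℕ} {z : TensorAlgebra k P} (h : Dv n z) : Dv n (M.d z) := by
  obtain ⟨u, rfl⟩ := h; exact ⟨M.d u, map_nsmul _ _ _⟩

lemma dv_Ψ {n : ℕ} {z : TensorAlgebra k P} (h : Dv n z) : Dv n (M.Ψ z) := by
  obtain ⟨u, rfl⟩ := h; exact ⟨M.Ψ u, map_nsmul _ _ _⟩

lemma dv_sgn {n : ℕ} {z : TensorAlgebra k P} (h : Dv n z) : Dv n (sgn z) := by
  obtain ⟨u, rfl⟩ := h; exact ⟨sgn u, map_nsmul _ _ _⟩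

/-- `d Ψ ≡ Ψ d` mod `3` -/
lemma dΨ (t : TensorAlgebra k P) : Dv 3 (M.d (M.Ψ t) - M.Ψ (M.d t)) := by
  induction t using TensorAlgebra.induction with
  | algebraMap r =>
      rw [AlgHom.commutes, M.d_algebraMap, map_zero, sub_zero]; exact Dv.zero
  | ι a =>
      have e : M.d (M.Ψ (TensorAlgebra.ι k a)) - M.Ψ (M.d (TensorAlgebra.ι k a))
          = - conc (M.Δ (M.ψ a) - M.ψψ (M.Δ a)) := by
        rw [M.Ψ_ι, M.d_ι, M.d_ι, map_sub, map_add, map_mul, map_mul, M.Ψ_ι, M.Ψ_ι, M.Ψ_conc,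
          map_one M.ψ, map_sub]
        abel
      rw [e]
      exact (dv_conc (M.dvψ a)).neg
  | mul a b ha hb =>
      have : M.d (M.Ψ (a * b)) - M.Ψ (M.d (a * b)) =
          (M.d (M.Ψ a) - M.Ψ (M.d a)) * M.Ψ b
            + sgn (M.Ψ a) * (M.d (M.Ψ b) - M.Ψ (M.d b)) := by
        rw [map_mul, M.d_mul, M.d_mul, map_add, map_mul, map_mul, M.Ψ_sgn]; noncomm_ring
      rw [this]; exact (ha.mul_right _).add (hb.mul_left _)
  | add a b ha hb =>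
      have : M.d (M.Ψ (a + b)) - M.Ψ (M.d (a + b)) =
          (M.d (M.Ψ a) - M.Ψ (M.d a)) + (M.d (M.Ψ b) - M.Ψ (M.d b)) := by
        simp only [map_add]; abel
      rw [this]; exact ha.add hb

/-- `d d Ψ ≡ 0` mod `9` -/
lemma ddΨ (t : TensorAlgebra k P) : Dv 9 (M.d (M.d (M.Ψ t))) := by
  induction t using TensorAlgebra.induction with
  | algebraMap r =>
      rw [AlgHom.commutes, M.d_algebraMap, map_zero]; exact Dv.zero
  | ι a =>
      rw [M.Ψ_ι, M.dd_ι, ← map_sub]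
      exact dv_conc3 (M.coassoc_nine a)
  | mul a b ha hb =>
      rw [map_mul, M.dd_mul]; exact (ha.mul_right _).add (hb.mul_left _)
  | add a b ha hb =>
      simp only [map_add]; exact ha.add hb

/-- `d Ψ Ψ ≡ Ψ d Ψ` mod `9` -/
lemma dΨΨ (t : TensorAlgebra k P) :
    Dv 9 (M.d (M.Ψ (M.Ψ t)) - M.Ψ (M.d (M.Ψ t))) := by
  induction t using TensorAlgebra.induction with
  | algebraMap r =>
      rw [AlgHom.commutes, AlgHom.commutes, M.d_algebraMap, map_zero, sub_zero]; exact Dv.zero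
  | ι a =>
      have e : M.d (M.Ψ (M.Ψ (TensorAlgebra.ι k a))) - M.Ψ (M.d (M.Ψ (TensorAlgebra.ι k a)))
          = - conc (M.Δ (M.ψ (M.ψ a)) - M.ψψ (M.Δ (M.ψ a))) := by
        rw [M.Ψ_ι, M.Ψ_ι, M.d_ι, M.d_ι, map_sub M.Ψ, map_add M.Ψ, map_mul, map_mul, M.Ψ_ι, M.Ψ_ι,
          M.Ψ_conc, map_one M.ψ, map_sub]
        abel
      rw [e]
      exact (dv_conc (M.dvψψ a)).neg
  | mul a b ha hb =>
      have : M.d (M.Ψ (M.Ψ (a * b))) - M.Ψ (M.d (M.Ψ (a * b))) =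
          (M.d (M.Ψ (M.Ψ a)) - M.Ψ (M.d (M.Ψ a))) * M.Ψ (M.Ψ b)
            + sgn (M.Ψ (M.Ψ a)) * (M.d (M.Ψ (M.Ψ b)) - M.Ψ (M.d (M.Ψ b))) := by
        rw [map_mul, map_mul, M.d_mul, M.d_mul, map_add, map_mul, map_mul, M.Ψ_sgn]; noncomm_ring
      rw [this]; exact (ha.mul_right _).add (hb.mul_left _)
  | add a b ha hb =>
      have : M.d (M.Ψ (M.Ψ (a + b))) - M.Ψ (M.d (M.Ψ (a + b))) =
          (M.d (M.Ψ (M.Ψ a)) - M.Ψ (M.d (M.Ψ a))) + (M.d (M.Ψ (M.Ψ b)) - M.Ψ (M.d (M.Ψ b))) := by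
        simp only [map_add]; abel
      rw [this]; exact ha.add hb

/-- `d d Ψ Ψ ≡ 0` mod `27` -/
lemma ddΨΨ (t : TensorAlgebra k P) : Dv 27 (M.d (M.d (M.Ψ (M.Ψ t)))) := by
  induction t using TensorAlgebra.induction with
  | algebraMap r =>
      rw [AlgHom.commutes, AlgHom.commutes, M.d_algebraMap, map_zero]; exact Dv.zero
  | ι a =>
      rw [M.Ψ_ι, M.Ψ_ι, M.dd_ι, ← map_sub]
      exact dv_conc3 (M.coassoc_twentyseven a)
  | mul a b ha hb =>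
      rw [map_mul, map_mul, M.dd_mul]; exact (ha.mul_right _).add (hb.mul_left _)
  | add a b ha hb =>
      simp only [map_add]; exact ha.add hb

/-! ### the Bockstein operation `(1/3) d Ψ` -/

/-- `t` is null: a boundary modulo `3` -/
def Null (t : TensorAlgebra k P) : Prop := ∃ c u, t = M.d c + 3 • u

/-- `t` is a cocycle modulo `3` -/
def Cyc (t : TensorAlgebra k P) : Prop := Dv 3 (M.d t)

/-- `w = (1/3) d Ψ x`, up to multiples of `3` -/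
def Bock (x w : TensorAlgebra k P) : Prop := ∃ u, M.d (M.Ψ x) = 3 • (w + 3 • u)

variable {M}

lemma Null.add {s t : TensorAlgebra k P} (hs : M.Null s) (ht : M.Null t) : M.Null (s + t) := by
  obtain ⟨c, u, rfl⟩ := hs; obtain ⟨c', u', rfl⟩ := ht
  exact ⟨c + c', u + u', by rw [map_add, smul_add]; abel⟩

lemma Null.neg {s : TensorAlgebra k P} (hs : M.Null s) : M.Null (-s) := by
  obtain ⟨c, u, rfl⟩ := hs
  exact ⟨-c, -u, by rw [map_neg, smul_neg]; abel⟩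

lemma Null.sub {s t : TensorAlgebra k P} (hs : M.Null s) (ht : M.Null t) : M.Null (s - t) := by
  rw [sub_eq_add_neg]; exact hs.add ht.neg

lemma Null.of_dv {s : TensorAlgebra k P} (hs : Dv 3 s) : M.Null s := by
  obtain ⟨u, rfl⟩ := hs; exact ⟨0, u, by simp⟩

lemma Null.d (c : TensorAlgebra k P) : M.Null (M.d c) := ⟨c, 0, by simp⟩

lemma Null.zero : M.Null 0 := ⟨0, 0, by simp⟩

lemma Null.mul_left {z t : TensorAlgebra k P} (hz : M.Cyc z) (ht : M.Null t) :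
    M.Null (z * t) := by
  obtain ⟨c, u, rfl⟩ := ht
  obtain ⟨e, he⟩ := hz
  refine ⟨sgn z * c, sgn e * c + z * u, ?_⟩
  rw [M.d_mul, M.d_sgn, sgn_sgn, he, mul_add, map_nsmul, smul_add, neg_mul, smul_mul_assoc,
    mul_smul_comm]
  abel

lemma Null.mul_right {z t : TensorAlgebra k P} (hz : M.Cyc z) (ht : M.Null t) :
    M.Null (t * z) := by
  obtain ⟨c, u, rfl⟩ := ht
  obtain ⟨e, he⟩ := hz
  refine ⟨c * z, - (sgn c * e) + u * z, ?_⟩
  rw [M.d_mul, he, add_mul, mul_smul_comm, smul_add, smul_neg, smul_mul_assoc]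
  abel

lemma Null.map_Ψ {t : TensorAlgebra k P} (ht : M.Null t) : M.Null (M.Ψ t) := by
  obtain ⟨c, u, rfl⟩ := ht
  obtain ⟨v, hv⟩ := M.dΨ c
  refine ⟨M.Ψ c, M.Ψ u - v, ?_⟩
  rw [map_add, map_nsmul, smul_sub, ← hv]
  abel

lemma Cyc.map_Ψ {t : TensorAlgebra k P} (ht : M.Cyc t) : M.Cyc (M.Ψ t) := by
  have h : M.d (M.Ψ t) = (M.d (M.Ψ t) - M.Ψ (M.d t)) + M.Ψ (M.d t) := by abel
  rw [Cyc, h]
  exact (M.dΨ t).add (M.dv_Ψ ht)

lemma Cyc.mul {s t : TensorAlgebra k P} (hs : M.Cyc s) (ht : M.Cyc t) : M.Cyc (s * t) := by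
  rw [Cyc, M.d_mul]
  exact (Dv.mul_right _ hs).add (Dv.mul_left _ ht)

lemma Cyc.add {s t : TensorAlgebra k P} (hs : M.Cyc s) (ht : M.Cyc t) : M.Cyc (s + t) := by
  rw [Cyc, map_add]
  exact Dv.add hs ht

/-- every cocycle mod `3` has a Bockstein -/
lemma Cyc.exists_bock {x : TensorAlgebra k P} (hx : M.Cyc x) : ∃ w, M.Bock x w := by
  obtain ⟨w, hw⟩ := hx.map_Ψ
  exact ⟨w, 0, by simpa using hw⟩

lemma Bock.mul {x y w v : TensorAlgebra k P} (hx : M.Bock x w) (hy : M.Bock y v) :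
    M.Bock (x * y) (w * M.Ψ y + sgn (M.Ψ x) * v) := by
  obtain ⟨u, hu⟩ := hx; obtain ⟨u', hu'⟩ := hy
  refine ⟨u * M.Ψ y + sgn (M.Ψ x) * u', ?_⟩
  rw [map_mul, M.d_mul, hu, hu']
  simp only [smul_mul_assoc, mul_smul_comm, mul_add, add_mul, smul_add]
  abel

lemma Bock.add {x y w v : TensorAlgebra k P} (hx : M.Bock x w) (hy : M.Bock y v) :
    M.Bock (x + y) (w + v) := by
  obtain ⟨u, hu⟩ := hx; obtain ⟨u', hu'⟩ := hy
  refine ⟨u + u', ?_⟩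
  rw [map_add, map_add, hu, hu']
  simp only [smul_add]
  abel

lemma Bock.neg {x w : TensorAlgebra k P} (hx : M.Bock x w) : M.Bock (-x) (-w) := by
  obtain ⟨u, hu⟩ := hx
  refine ⟨-u, ?_⟩
  rw [map_neg, map_neg, hu]
  simp only [smul_add, smul_neg]
  abel

/-- the Bockstein commutes with `Ψ` -/
lemma Bock.map_Ψ {x w : TensorAlgebra k P} (hx : M.Bock x w) : M.Bock (M.Ψ x) (M.Ψ w) := by
  obtain ⟨u, hu⟩ := hx
  obtain ⟨v, hv⟩ := M.dΨΨ x
  refine ⟨M.Ψ u + v, ?_⟩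
  have h : M.d (M.Ψ (M.Ψ x)) = (M.d (M.Ψ (M.Ψ x)) - M.Ψ (M.d (M.Ψ x))) + M.Ψ (M.d (M.Ψ x)) := by
    abel
  rw [h, hv, hu]
  simp only [map_nsmul, map_add, smul_add, smul_smul]
  norm_num
  abel

section torsionfree

variable (h3 : ∀ s t : TensorAlgebra k P, 3 • s = 3 • t → s = t)
include h3

/-- the Bockstein of a null class is null -/
lemma Bock.null {x w : TensorAlgebra k P} (hx : M.Bock x w) (hn : M.Null x) : M.Null w := by
  obtain ⟨u, hu⟩ := hx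
  obtain ⟨c, e, rfl⟩ := hn
  obtain ⟨v, hv⟩ := M.dΨ c
  obtain ⟨v', hv'⟩ := M.ddΨ c
  have e1 : M.Ψ (M.d c) = M.d (M.Ψ c) - 3 • v := by rw [← hv]; abel
  have e2 : 3 • w = 3 • (3 • v' - M.d v + M.d (M.Ψ e) - 3 • u) := by
    have : 3 • w = M.d (M.Ψ (M.d c + 3 • e)) - 9 • u := by
      rw [hu, smul_add, smul_smul]; norm_num
    rw [this, map_add, map_add, e1, map_sub, hv', map_nsmul, map_nsmul, map_nsmul]
    simp only [smul_add, smul_sub, smul_smul]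
    norm_num
  have e3 := h3 _ _ e2
  rw [e3]
  refine ⟨M.Ψ e - v, v' - u, ?_⟩
  rw [map_sub, smul_sub]; abel

/-- the Bockstein of a Bockstein is null -/
lemma Bock.bock {x w v : TensorAlgebra k P} (hx : M.Bock x w) (hw : M.Bock w v) :
    M.Null v := by
  obtain ⟨u, hu⟩ := hx
  obtain ⟨u', hu'⟩ := hw
  obtain ⟨a, ha⟩ := M.dΨΨ x
  obtain ⟨b, hb⟩ := M.ddΨΨ x
  -- Ψ d Ψ x = d Ψ Ψ x - 9 a ; 3 (Ψ w + 3 Ψ u) = Ψ d Ψ x
  have e1 : 3 • (M.Ψ w + 3 • M.Ψ u) = M.d (M.Ψ (M.Ψ x)) - 9 • a := by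
    rw [← ha, hu, map_nsmul, map_add, map_nsmul]; abel
  have e2 : 3 • (M.d (M.Ψ w) + 3 • M.d (M.Ψ u)) = 27 • b - 9 • M.d a := by
    have := congrArg M.d e1
    simpa only [map_nsmul, map_add, map_sub, hb] using this
  rw [hu'] at e2
  have e3 : 3 • (3 • (v + 3 • u' + M.d (M.Ψ u))) = 3 • (3 • (3 • b - M.d a)) := by
    have : 3 • (3 • (v + 3 • u' + M.d (M.Ψ u))) = 3 • (3 • (v + 3 • u') + 3 • M.d (M.Ψ u)) := by
      simp only [smul_add]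
    rw [this, e2]
    simp only [smul_sub, smul_smul]
    norm_num
  have e4 := h3 _ _ (h3 _ _ e3)
  have e5 : v = M.d (-(a + M.Ψ u)) + 3 • (b - u') := by
    have : v = (v + 3 • u' + M.d (M.Ψ u)) - 3 • u' - M.d (M.Ψ u) := by abel
    rw [this, e4, map_neg, map_add, smul_sub]; abel
  exact ⟨_, _, e5⟩

/-- the Bockstein of a cocycle is a cocycle -/
lemma Bock.cyc {x w : TensorAlgebra k P} (hx : M.Bock x w) : M.Cyc w := by
  obtain ⟨u, hu⟩ := hx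
  obtain ⟨v, hv⟩ := M.ddΨ x
  rw [hu] at hv
  have : 3 • (M.d w + 3 • M.d u) = 3 • (3 • v) := by
    simp only [map_nsmul, map_add] at hv
    rw [smul_smul 3 3 v]
    simpa using hv
  have h := h3 _ _ this
  exact ⟨v - M.d u, by rw [smul_sub, ← h]; abel⟩

end torsionfree

end MData

end Vale.Agent.P236
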