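import Vale.Agent.P236.Diff

/-!
P236.  Explicit identities in the cobar complex in characteristic three.
-/

open TensorProduct
open Finset.HasAntidiagonal (antidiagonal mem_antidiagonal)

namespace Vale.Agent.P236

namespace MData

variable {k P : Type*} [CommRing k] [CommRing P] [Algebra k P] (M : MData k P)

/-- `a ↦ a ⊗ 1` -/
noncomputable def L (k : Type*) {P : Type*} [CommRing k] [CommRing P] [Algebra k P] :
    P →ₐ[k] P ⊗[k] P := Algebra.TensorProduct.includeLeft

/-- `a ↦ 1 ⊗ a` -/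
noncomputable def R (k : Type*) {P : Type*} [CommRing k] [CommRing P] [Algebra k P] :
    P →ₐ[k] P ⊗[k] P := Algebra.TensorProduct.includeRight

lemma tmul_LR (a b : P) : a ⊗ₜ[k] b = L k a * R k b := by
  simp [L, R]

lemma Δ1 : M.Δ (M.ξ 1) = L k (M.ξ 1) + R k (M.ξ 1) := by
  rw [M.Δξ]
  have : antidiagonal 1 = {(0, 1), (1, 0)} := rfl
  rw [this, Finset.sum_insert (by decide), Finset.sum_singleton]
  simp [M.ξ0, L, R, add_comm]

lemma Δ2 : M.Δ (M.ξ 2) = L k (M.ξ 2) + L k (M.ξ 1) ^ 3 * R k (M.ξ 1) + R k (M.ξ 2) := by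
  rw [M.Δξ]
  have : antidiagonal 2 = {(0, 2), (1, 1), (2, 0)} := rfl
  rw [this, Finset.sum_insert (by decide), Finset.sum_insert (by decide), Finset.sum_singleton]
  simp only [M.ξ0, tmul_LR, map_pow, map_one, one_pow, pow_zero, pow_one, one_mul, mul_one]
  ring

lemma Δ3 : M.Δ (M.ξ 3) = L k (M.ξ 3) + L k (M.ξ 2) ^ 3 * R k (M.ξ 1)
    + L k (M.ξ 1) ^ 9 * R k (M.ξ 2) + R k (M.ξ 3) := by
  rw [M.Δξ]
  have : antidiagonal 3 = {(0, 3), (1, 2), (2, 1), (3, 0)} := rfl
  rw [this, Finset.sum_insert (by decide), Finset.sum_insert (by decide),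
    Finset.sum_insert (by decide), Finset.sum_singleton]
  simp only [M.ξ0, tmul_LR, map_pow, map_one, one_pow, pow_zero, pow_one, one_mul, mul_one]
  norm_num
  ring

lemma d_of_Δ {m : P} {S : P ⊗[k] P} (h : M.Δ m = L k m + R k m + S) :
    M.d (TensorAlgebra.ι k m) = - conc S := by
  rw [M.d_ι, h, map_add, map_add]
  have e1 : conc (k := k) (L k m) = TensorAlgebra.ι k m * TensorAlgebra.ι k 1 := by
    simp [L]
  have e2 : conc (k := k) (R k m) = TensorAlgebra.ι k 1 * TensorAlgebra.ι k m := by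
    simp [R]
  rw [e1, e2]; abel

end MData

end Vale.Agent.P236
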