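import Vale.Agent.P236.Explicit

/-!
P236.  The differential on some letters (generated), in characteristic three:
`x = ξ₁`, `y = ξ₂`, `w = ξ₃`, `x3 = ξ₁³`, `x9 = ξ₁⁹`, `y3 = ξ₂³`.
-/

open TensorProduct

namespace Vale.Agent.P236

namespace MData

variable {k P : Type*} [CommRing k] [CommRing P] [Algebra k P] {M : MData k P}

/-- a letter -/
noncomputable abbrev e (k : Type*) {P : Type*} [CommRing k] [CommRing P] [Algebra k P] :
    P →ₗ[k] TensorAlgebra k P := TensorAlgebra.ι k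

lemma conc_LR (a b : P) : conc (L k a * R k b) = e k a * e k b := by
  rw [← tmul_LR, conc_tmul]

/-- the six letters used in the explicit cochains -/
structure Six (M : MData k P) (x y w x3 x9 y3 : P) : Prop where
  hx : M.Δ x = L k x + R k x
  hx3 : M.Δ x3 = L k x3 + R k x3
  hx9 : M.Δ x9 = L k x9 + R k x9
  hy : M.Δ y = L k y + L k x3 * R k x + R k y
  hy3 : M.Δ y3 = L k y3 + L k x9 * R k x3 + R k y3
  hw : M.Δ w = L k w + L k y3 * R k x + L k x9 * R k y + R k w
  e3 : x ^ 3 = x3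

variable {x y w x3 x9 y3 : P}

lemma dC (H : Six M x y w x3 x9 y3) : M.d (e k (y3)) = -((e k x9) * (e k x3)) := by
  have h := M.d_of_Δ (m := y3)
    (S := L k (x9) * R k (x3)) (by
      simp only [map_mul, map_pow, H.hx, H.hx3, H.hx9, H.hy, H.hy3, H.hw]
      try simp only [← H.e3, map_pow]
      ring)
  rw [e, h]
  simp only [map_add, map_nsmul, conc_LR]

lemma dB (H : Six M x y w x3 x9 y3) : M.d (e k (x9)) = 0 := by
  have h := M.d_of_Δ (m := x9) (S := 0) (by rw [H.hx9]; ring)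
  rw [e, h, map_zero, neg_zero]

lemma dA (H : Six M x y w x3 x9 y3) : M.d (e k (x3)) = 0 := by
  have h := M.d_of_Δ (m := x3) (S := 0) (by rw [H.hx3]; ring)
  rw [e, h, map_zero, neg_zero]

lemma dAC (H : Six M x y w x3 x9 y3) : M.d (e k (x3 * y3)) = -((e k y3) * (e k x3) + (e k x9) * (e k (x3 ^ 2)) + (e k x3) * (e k y3) + (e k (x3 * x9)) * (e k x3)) := by
  have h := M.d_of_Δ (m := x3 * y3)
    (S := L k (y3) * R k (x3) + L k (x9) * R k (x3 ^ 2) + L k (x3) * R k (y3) + L k (x3 * x9) * R k (x3)) (by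
      simp only [map_mul, map_pow, H.hx, H.hx3, H.hx9, H.hy, H.hy3, H.hw]
      try simp only [← H.e3, map_pow]
      ring)
  rw [e, h]
  simp only [map_add, map_nsmul, conc_LR]

lemma dAB (H : Six M x y w x3 x9 y3) : M.d (e k (x3 * x9)) = -((e k x9) * (e k x3) + (e k x3) * (e k x9)) := by
  have h := M.d_of_Δ (m := x3 * x9)
    (S := L k (x9) * R k (x3) + L k (x3) * R k (x9)) (by
      simp only [map_mul, map_pow, H.hx, H.hx3, H.hx9, H.hy, H.hy3, H.hw]
      try simp only [← H.e3, map_pow]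
      ring)
  rw [e, h]
  simp only [map_add, map_nsmul, conc_LR]

lemma dA2 (H : Six M x y w x3 x9 y3) : M.d (e k (x3 ^ 2)) = -(2 • ((e k x3) * (e k x3))) := by
  have h := M.d_of_Δ (m := x3 ^ 2)
    (S := 2 • (L k (x3) * R k (x3))) (by
      simp only [map_mul, map_pow, H.hx, H.hx3, H.hx9, H.hy, H.hy3, H.hw]
      try simp only [← H.e3, map_pow]
      ring)
  rw [e, h]
  simp only [map_add, map_nsmul, conc_LR]

lemma dW (H : Six M x y w x3 x9 y3) : M.d (e k (w)) = -((e k y3) * (e k x) + (e k x9) * (e k y)) := by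
  have h := M.d_of_Δ (m := w)
    (S := L k (y3) * R k (x) + L k (x9) * R k (y)) (by
      simp only [map_mul, map_pow, H.hx, H.hx3, H.hx9, H.hy, H.hy3, H.hw]
      try simp only [← H.e3, map_pow]
      ring)
  rw [e, h]
  simp only [map_add, map_nsmul, conc_LR]

lemma dY (H : Six M x y w x3 x9 y3) : M.d (e k (y)) = -((e k x3) * (e k x)) := by
  have h := M.d_of_Δ (m := y)
    (S := L k (x3) * R k (x)) (by
      simp only [map_mul, map_pow, H.hx, H.hx3, H.hx9, H.hy, H.hy3, H.hw]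
      try simp only [← H.e3, map_pow]
      ring)
  rw [e, h]
  simp only [map_add, map_nsmul, conc_LR]

lemma dCY (H : Six M x y w x3 x9 y3) : M.d (e k (y3 * y)) = -((e k y3) * (e k y) + (e k x9) * (e k (x3 * y)) + (e k x3) * (e k (y3 * x)) + (e k (x3 * y3)) * (e k x) + (e k (x3 * x9)) * (e k (x3 * x)) + (e k y) * (e k y3) + (e k (x9 * y)) * (e k x3)) := by
  have h := M.d_of_Δ (m := y3 * y)
    (S := L k (y3) * R k (y) + L k (x9) * R k (x3 * y) + L k (x3) * R k (y3 * x) + L k (x3 * y3) * R k (x) + L k (x3 * x9) * R k (x3 * x) + L k (y) * R k (y3) + L k (x9 * y) * R k (x3)) (by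
      simp only [map_mul, map_pow, H.hx, H.hx3, H.hx9, H.hy, H.hy3, H.hw]
      try simp only [← H.e3, map_pow]
      ring)
  rw [e, h]
  simp only [map_add, map_nsmul, conc_LR]

lemma dBY (H : Six M x y w x3 x9 y3) : M.d (e k (x9 * y)) = -((e k x9) * (e k y) + (e k x3) * (e k (x9 * x)) + (e k (x3 * x9)) * (e k x) + (e k y) * (e k x9)) := by
  have h := M.d_of_Δ (m := x9 * y)
    (S := L k (x9) * R k (y) + L k (x3) * R k (x9 * x) + L k (x3 * x9) * R k (x) + L k (y) * R k (x9)) (by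
      simp only [map_mul, map_pow, H.hx, H.hx3, H.hx9, H.hy, H.hy3, H.hw]
      try simp only [← H.e3, map_pow]
      ring)
  rw [e, h]
  simp only [map_add, map_nsmul, conc_LR]

lemma dAY (H : Six M x y w x3 x9 y3) : M.d (e k (x3 * y)) = -((e k x3) * (e k y) + (e k x3) * (e k (x3 * x)) + (e k (x3 ^ 2)) * (e k x) + (e k y) * (e k x3)) := by
  have h := M.d_of_Δ (m := x3 * y)
    (S := L k (x3) * R k (y) + L k (x3) * R k (x3 * x) + L k (x3 ^ 2) * R k (x) + L k (y) * R k (x3)) (by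
      simp only [map_mul, map_pow, H.hx, H.hx3, H.hx9, H.hy, H.hy3, H.hw]
      try simp only [← H.e3, map_pow]
      ring)
  rw [e, h]
  simp only [map_add, map_nsmul, conc_LR]

lemma dY2 (H : Six M x y w x3 x9 y3) : M.d (e k (y ^ 2)) = -(2 • ((e k x3) * (e k (x * y))) + (e k (x3 ^ 2)) * (e k (x ^ 2)) + 2 • ((e k y) * (e k y)) + 2 • ((e k (x3 * y)) * (e k x))) := by
  have h := M.d_of_Δ (m := y ^ 2)
    (S := 2 • (L k (x3) * R k (x * y)) + L k (x3 ^ 2) * R k (x ^ 2) + 2 • (L k (y) * R k (y)) + 2 • (L k (x3 * y) * R k (x))) (by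
      simp only [map_mul, map_pow, H.hx, H.hx3, H.hx9, H.hy, H.hy3, H.hw]
      try simp only [← H.e3, map_pow]
      ring)
  rw [e, h]
  simp only [map_add, map_nsmul, conc_LR]

lemma dX (H : Six M x y w x3 x9 y3) : M.d (e k (x)) = 0 := by
  have h := M.d_of_Δ (m := x) (S := 0) (by rw [H.hx]; ring)
  rw [e, h, map_zero, neg_zero]

lemma dCX (H : Six M x y w x3 x9 y3) : M.d (e k (y3 * x)) = -((e k y3) * (e k x) + (e k x9) * (e k (x3 * x)) + (e k x) * (e k y3) + (e k (x9 * x)) * (e k x3)) := by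
  have h := M.d_of_Δ (m := y3 * x)
    (S := L k (y3) * R k (x) + L k (x9) * R k (x3 * x) + L k (x) * R k (y3) + L k (x9 * x) * R k (x3)) (by
      simp only [map_mul, map_pow, H.hx, H.hx3, H.hx9, H.hy, H.hy3, H.hw]
      try simp only [← H.e3, map_pow]
      ring)
  rw [e, h]
  simp only [map_add, map_nsmul, conc_LR]

lemma dBX (H : Six M x y w x3 x9 y3) : M.d (e k (x9 * x)) = -((e k x9) * (e k x) + (e k x) * (e k x9)) := by
  have h := M.d_of_Δ (m := x9 * x)
    (S := L k (x9) * R k (x) + L k (x) * R k (x9)) (by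
      simp only [map_mul, map_pow, H.hx, H.hx3, H.hx9, H.hy, H.hy3, H.hw]
      try simp only [← H.e3, map_pow]
      ring)
  rw [e, h]
  simp only [map_add, map_nsmul, conc_LR]

lemma dAX (H : Six M x y w x3 x9 y3) : M.d (e k (x3 * x)) = -((e k x3) * (e k x) + (e k x) * (e k x3)) := by
  have h := M.d_of_Δ (m := x3 * x)
    (S := L k (x3) * R k (x) + L k (x) * R k (x3)) (by
      simp only [map_mul, map_pow, H.hx, H.hx3, H.hx9, H.hy, H.hy3, H.hw]
      try simp only [← H.e3, map_pow]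
      ring)
  rw [e, h]
  simp only [map_add, map_nsmul, conc_LR]

lemma dXY (H : Six M x y w x3 x9 y3) : M.d (e k (x * y)) = -((e k x3) * (e k (x ^ 2)) + (e k y) * (e k x) + (e k x) * (e k y) + (e k (x3 * x)) * (e k x)) := by
  have h := M.d_of_Δ (m := x * y)
    (S := L k (x3) * R k (x ^ 2) + L k (y) * R k (x) + L k (x) * R k (y) + L k (x3 * x) * R k (x)) (by
      simp only [map_mul, map_pow, H.hx, H.hx3, H.hx9, H.hy, H.hy3, H.hw]
      try simp only [← H.e3, map_pow]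
      ring)
  rw [e, h]
  simp only [map_add, map_nsmul, conc_LR]

lemma dX2 (H : Six M x y w x3 x9 y3) : M.d (e k (x ^ 2)) = -(2 • ((e k x) * (e k x))) := by
  have h := M.d_of_Δ (m := x ^ 2)
    (S := 2 • (L k (x) * R k (x))) (by
      simp only [map_mul, map_pow, H.hx, H.hx3, H.hx9, H.hy, H.hy3, H.hw]
      try simp only [← H.e3, map_pow]
      ring)
  rw [e, h]
  simp only [map_add, map_nsmul, conc_LR]

lemma dCX2 (H : Six M x y w x3 x9 y3) : M.d (e k (y3 * x ^ 2)) = -((e k y3) * (e k (x ^ 2)) + (e k x9) * (e k (x3 * x ^ 2)) + 2 • ((e k x) * (e k (y3 * x))) + 2 • ((e k (y3 * x)) * (e k x)) + 2 • ((e k (x9 * x)) * (e k (x3 * x))) + (e k (x ^ 2)) * (e k y3) + (e k (x9 * x ^ 2)) * (e k x3)) := by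
  have h := M.d_of_Δ (m := y3 * x ^ 2)
    (S := L k (y3) * R k (x ^ 2) + L k (x9) * R k (x3 * x ^ 2) + 2 • (L k (x) * R k (y3 * x)) + 2 • (L k (y3 * x) * R k (x)) + 2 • (L k (x9 * x) * R k (x3 * x)) + L k (x ^ 2) * R k (y3) + L k (x9 * x ^ 2) * R k (x3)) (by
      simp only [map_mul, map_pow, H.hx, H.hx3, H.hx9, H.hy, H.hy3, H.hw]
      try simp only [← H.e3, map_pow]
      ring)
  rw [e, h]
  simp only [map_add, map_nsmul, conc_LR]

lemma dBX2 (H : Six M x y w x3 x9 y3) : M.d (e k (x9 * x ^ 2)) = -((e k x9) * (e k (x ^ 2)) + 2 • ((e k x) * (e k (x9 * x))) + 2 • ((e k (x9 * x)) * (e k x)) + (e k (x ^ 2)) * (e k x9)) := by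
  have h := M.d_of_Δ (m := x9 * x ^ 2)
    (S := L k (x9) * R k (x ^ 2) + 2 • (L k (x) * R k (x9 * x)) + 2 • (L k (x9 * x) * R k (x)) + L k (x ^ 2) * R k (x9)) (by
      simp only [map_mul, map_pow, H.hx, H.hx3, H.hx9, H.hy, H.hy3, H.hw]
      try simp only [← H.e3, map_pow]
      ring)
  rw [e, h]
  simp only [map_add, map_nsmul, conc_LR]

lemma dAX2 (H : Six M x y w x3 x9 y3) : M.d (e k (x3 * x ^ 2)) = -((e k x3) * (e k (x ^ 2)) + 2 • ((e k x) * (e k (x3 * x))) + 2 • ((e k (x3 * x)) * (e k x)) + (e k (x ^ 2)) * (e k x3)) := by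
  have h := M.d_of_Δ (m := x3 * x ^ 2)
    (S := L k (x3) * R k (x ^ 2) + 2 • (L k (x) * R k (x3 * x)) + 2 • (L k (x3 * x) * R k (x)) + L k (x ^ 2) * R k (x3)) (by
      simp only [map_mul, map_pow, H.hx, H.hx3, H.hx9, H.hy, H.hy3, H.hw]
      try simp only [← H.e3, map_pow]
      ring)
  rw [e, h]
  simp only [map_add, map_nsmul, conc_LR]

lemma dX2Y (H : Six M x y w x3 x9 y3) : M.d (e k (x ^ 2 * y)) = -((e k x3) * (e k x3) + (e k y) * (e k (x ^ 2)) + 2 • ((e k x) * (e k (x * y))) + 2 • ((e k (x3 * x)) * (e k (x ^ 2))) + 2 • ((e k (x * y)) * (e k x)) + (e k (x ^ 2)) * (e k y) + (e k (x3 * x ^ 2)) * (e k x)) := by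
  have h := M.d_of_Δ (m := x ^ 2 * y)
    (S := L k (x3) * R k (x3) + L k (y) * R k (x ^ 2) + 2 • (L k (x) * R k (x * y)) + 2 • (L k (x3 * x) * R k (x ^ 2)) + 2 • (L k (x * y) * R k (x)) + L k (x ^ 2) * R k (y) + L k (x3 * x ^ 2) * R k (x)) (by
      simp only [map_mul, map_pow, H.hx, H.hx3, H.hx9, H.hy, H.hy3, H.hw]
      try simp only [← H.e3, map_pow]
      ring)
  rw [e, h]
  simp only [map_add, map_nsmul, conc_LR]

end MData

end Vale.Agent.P236
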