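import Vale.Agent.P236.Cobar

/-!
P236.  The integral lift of the cobar complex of `F₃[ξ₁, ξ₂, …]` and its congruences.
-/

open TensorProduct

namespace Vale.Agent.P236

/-- `t` is divisible by `n` -/
def Dv {A : Type*} [AddCommGroup A] (n : ℕ) (t : A) : Prop := ∃ u : A, t = n • u

section Dv
variable {A : Type*} [Ring A] {n m : ℕ} {s t : A}

lemma Dv.add (hs : Dv n s) (ht : Dv n t) : Dv n (s + t) := by
  obtain ⟨u, rfl⟩ := hs; obtain ⟨v, rfl⟩ := ht; exact ⟨u + v, (smul_add _ _ _).symm⟩

lemma Dv.neg (hs : Dv n s) : Dv n (-s) := by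
  obtain ⟨u, rfl⟩ := hs; exact ⟨-u, (smul_neg _ _).symm⟩

lemma Dv.sub (hs : Dv n s) (ht : Dv n t) : Dv n (s - t) := by
  rw [sub_eq_add_neg]; exact hs.add ht.neg

lemma Dv.zero : Dv n (0 : A) := ⟨0, by simp⟩

lemma Dv.mul_left (a : A) (hs : Dv n s) : Dv n (a * s) := by
  obtain ⟨u, rfl⟩ := hs; exact ⟨a * u, (mul_smul_comm _ _ _)⟩

lemma Dv.mul_right (a : A) (hs : Dv n s) : Dv n (s * a) := by
  obtain ⟨u, rfl⟩ := hs; exact ⟨u * a, (smul_mul_assoc _ _ _)⟩

lemma Dv.map {B : Type*} [AddCommGroup B] (f : A →+ B) (hs : Dv n s) : Dv n (f s) := by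
  obtain ⟨u, rfl⟩ := hs; exact ⟨f u, map_nsmul f n u⟩

lemma Dv.sum {ι : Type*} (S : Finset ι) (f : ι → A) (h : ∀ i ∈ S, Dv n (f i)) :
    Dv n (∑ i ∈ S, f i) := by
  classical
  induction S using Finset.induction_on with
  | empty => simpa using Dv.zero
  | insert a S ha ih =>
      rw [Finset.sum_insert ha]
      exact (h a (by simp)).add (ih fun i hi => h i (by simp [hi]))

lemma Dv.sum_sub {ι : Type*} (S : Finset ι) (f g : ι → A) (h : ∀ i ∈ S, Dv n (f i - g i)) :
    Dv n (∑ i ∈ S, f i - ∑ i ∈ S, g i) := by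
  rw [← Finset.sum_sub_distrib]; exact Dv.sum _ _ h

end Dv

section commutative
variable {A : Type*} [CommRing A]

/-- `x ≡ y mod 3^(k+1)` implies `x³ ≡ y³ mod 3^(k+2)` -/
lemma Dv.cube {k : ℕ} {x y : A} (h : Dv (3 ^ (k + 1)) (x - y)) :
    Dv (3 ^ (k + 2)) (x ^ 3 - y ^ 3) := by
  obtain ⟨u, hu⟩ := h
  have hx : x = y + (3 : A) ^ (k + 1) * u := by
    have : x = y + (x - y) := by ring
    rw [this, hu, nsmul_eq_mul]; push_cast; ring
  refine ⟨y ^ 2 * u + 3 ^ (k + 1) * y * u ^ 2 + 3 ^ (2 * k + 1) * u ^ 3, ?_⟩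
  rw [hx, nsmul_eq_mul]; push_cast; ring

lemma Dv.cube_sum {ι : Type*} (S : Finset ι) (f : ι → A) :
    Dv 3 ((∑ i ∈ S, f i) ^ 3 - ∑ i ∈ S, f i ^ 3) := by
  classical
  induction S using Finset.induction_on with
  | empty => simpa using Dv.zero
  | insert a S ha ih =>
      rw [Finset.sum_insert ha, Finset.sum_insert ha]
      obtain ⟨u, hu⟩ := ih
      refine ⟨u + f a ^ 2 * (∑ i ∈ S, f i) + f a * (∑ i ∈ S, f i) ^ 2, ?_⟩
      rw [nsmul_eq_mul] at hu ⊢
      push_cast at hu ⊢
      linear_combination hu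

/-- two algebra maps that agree mod `n` on generators agree mod `n` -/
lemma Dv.of_gens {k P : Type*} [CommRing k] [CommRing P] [Algebra k P] [Algebra k A] {n : ℕ}
    {S : Set P} (hS : Algebra.adjoin k S = ⊤) (f g : P →ₐ[k] A)
    (h : ∀ i ∈ S, Dv n (f i - g i)) (a : P) : Dv n (f a - g a) := by
  have ha : a ∈ Algebra.adjoin k S := by rw [hS]; trivial
  induction ha using Algebra.adjoin_induction with
  | mem x hx => exact h x hx
  | algebraMap r => rw [AlgHom.commutes, AlgHom.commutes, sub_self]; exact Dv.zero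
  | add p q _ _ hp hq =>
      have : f (p + q) - g (p + q) = (f p - g p) + (f q - g q) := by
        rw [map_add, map_add]; ring
      rw [this]; exact hp.add hq
  | mul p q _ _ hp hq =>
      have : f (p * q) - g (p * q) = (f p - g p) * f q + g p * (f q - g q) := by
        rw [map_mul, map_mul]; ring
      rw [this]; exact (hp.mul_right _).add (hq.mul_left _)

end commutative

section functorial
variable {k C D : Type*} [CommRing k] [AddCommGroup C] [Module k C] [AddCommGroup D] [Module k D]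

/-- the map of tensor algebras induced by a linear map -/
noncomputable def tmap (f : C →ₗ[k] D) : TensorAlgebra k C →ₐ[k] TensorAlgebra k D :=
  TensorAlgebra.lift k (TensorAlgebra.ι k ∘ₗ f)

@[simp] lemma tmap_ι (f : C →ₗ[k] D) (a : C) :
    tmap f (TensorAlgebra.ι k a) = TensorAlgebra.ι k (f a) := by simp [tmap]

@[simp] lemma tmap_conc (f : C →ₗ[k] D) (z : C ⊗[k] C) :
    tmap f (conc (k := k) z) = conc (TensorProduct.map f f z) := by
  induction z using TensorProduct.induction_on with
  | zero => simp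
  | tmul a b => simp
  | add a b ha hb => simp [ha, hb]

lemma tmap_sgn (f : C →ₗ[k] D) (u : TensorAlgebra k C) : tmap f (sgn u) = sgn (tmap f u) := by
  induction u using TensorAlgebra.induction with
  | algebraMap r => simp
  | ι a => simp
  | mul a b ha hb => simp [ha, hb]
  | add a b ha hb => simp [ha, hb]

/-- functoriality of the cobar complex -/
lemma tmap_cobarD (f : C →ₗ[k] D) (Δ : C →ₗ[k] C ⊗[k] C) (Δ' : D →ₗ[k] D ⊗[k] D) (e : C)
    (h : ∀ a, Δ' (f a) = TensorProduct.map f f (Δ a)) (u : TensorAlgebra k C) :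
    tmap f (cobarD Δ e u) = cobarD Δ' (f e) (tmap f u) := by
  induction u using TensorAlgebra.induction with
  | algebraMap r => 
      rw [Algebra.algebraMap_eq_smul_one, map_smul, map_smul, cobarD_one, map_smul, map_smul,
        map_one, cobarD_one, map_zero]
  | ι a => simp [h]
  | mul a b ha hb => rw [cobarD_mul, map_add, map_mul, map_mul, map_mul, cobarD_mul, ha, hb,
      tmap_sgn]
  | add a b ha hb => simp [ha, hb]

end functorial

/-! ### iterated coproducts -/

section three
variable {k C : Type*} [CommRing k] [AddCommGroup C] [Module k C]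

/-- `(a ⊗ b) ⊗ c ↦ [a|b|c]` -/
noncomputable def conc3 : (C ⊗[k] C) ⊗[k] C →ₗ[k] TensorAlgebra k C :=
  (LinearMap.mul' k (TensorAlgebra k C)) ∘ₗ (TensorProduct.map conc (TensorAlgebra.ι k))

@[simp] lemma conc3_tmul (z : C ⊗[k] C) (c : C) :
    conc3 (k := k) (z ⊗ₜ[k] c) = conc z * TensorAlgebra.ι k c := by
  simp [conc3]

lemma conc3_assoc (a : C) (z : C ⊗[k] C) :
    conc3 ((TensorProduct.assoc k C C C).symm (a ⊗ₜ[k] z)) = TensorAlgebra.ι k a * conc z := by
  induction z using TensorProduct.induction_on with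
  | zero => simp
  | tmul b c => simp [mul_assoc]
  | add x y hx hy => simp [TensorProduct.tmul_add, hx, hy, mul_add]

/-- the differential on words of length two -/
lemma cobarD_conc (Δ : C →ₗ[k] C ⊗[k] C) (e : C) (z : C ⊗[k] C) :
    cobarD Δ e (conc z) = TensorAlgebra.ι k e * conc z - conc z * TensorAlgebra.ι k e
      - conc3 (TensorProduct.map Δ LinearMap.id z)
      + conc3 ((TensorProduct.assoc k C C C).symm (TensorProduct.map LinearMap.id Δ z)) := by
  induction z using TensorProduct.induction_on with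
  | zero => simp
  | tmul a b =>
      simp only [conc_tmul, cobarD_mul, cobarD_ι, sgn_ι, TensorProduct.map_tmul, conc3_tmul,
        conc3_assoc, LinearMap.id_coe, id_eq]
      noncomm_ring
  | add x y hx hy => simp only [map_add, hx, hy, mul_add, add_mul]; abel

/-- the square of the differential on a word of length one measures coassociativity -/
lemma cobarD_cobarD_ι (Δ : C →ₗ[k] C ⊗[k] C) (e a : C) (he : Δ e = e ⊗ₜ[k] e) :
    cobarD Δ e (cobarD Δ e (TensorAlgebra.ι k a)) =
      conc3 (TensorProduct.map Δ LinearMap.id (Δ a))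
      - conc3 ((TensorProduct.assoc k C C C).symm (TensorProduct.map LinearMap.id Δ (Δ a))) := by
  simp only [cobarD_ι, map_add, map_sub, cobarD_mul, cobarD_conc, sgn_ι, he, conc_tmul]
  noncomm_ring

/-- the square of the differential is a derivation -/
lemma cobarD_cobarD_mul (Δ : C →ₗ[k] C ⊗[k] C) (e : C) (u v : TensorAlgebra k C) :
    cobarD Δ e (cobarD Δ e (u * v)) =
      cobarD Δ e (cobarD Δ e u) * v + u * cobarD Δ e (cobarD Δ e v) := by
  simp only [cobarD_mul, map_add, cobarD_sgn, sgn_sgn]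
  noncomm_ring

end three

end Vale.Agent.P236
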