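import Vale.Agent.P236.Reduce

/-!
P236.  `b_j³ = 0` for `j ≥ 2` and `h_0 b_{j-1}³ = 0` for `j ≥ 2` in the cohomology of the cobar
complex of `F₃[ξ₁, ξ₂, …]`.
-/

set_option linter.unusedSimpArgs false

open TensorProduct Module

namespace Vale.Agent.P236

open MData

section six

/-- the six letters over `F₃` -/
lemma sixF : Six MF (xi (ZMod 3) 1) (xi (ZMod 3) 2) (xi (ZMod 3) 3) (xi (ZMod 3) 1 ^ 3)
    (xi (ZMod 3) 1 ^ 9) (xi (ZMod 3) 2 ^ 3) := by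
  have h3 : ∀ t : MvPolynomial ℕ (ZMod 3) ⊗[ZMod 3] MvPolynomial ℕ (ZMod 3), 3 * t = 0 := by
    intro t
    have h : (3 : ℕ) • t = 0 := by
      rw [← Nat.cast_smul_eq_nsmul (ZMod 3)]
      have : ((3 : ℕ) : ZMod 3) = 0 := by decide
      rw [this, zero_smul]
    rw [nsmul_eq_mul] at h
    exact_mod_cast h
  have frob : ∀ a b : MvPolynomial ℕ (ZMod 3) ⊗[ZMod 3] MvPolynomial ℕ (ZMod 3),
      (a + b) ^ 3 = a ^ 3 + b ^ 3 := by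
    intro a b
    linear_combination h3 (a ^ 2 * b + a * b ^ 2)
  have e1 := MF.Δ1
  have e2 := MF.Δ2
  have e3 := MF.Δ3
  have hx3 : MF.Δ (xi (ZMod 3) 1 ^ 3) = L (ZMod 3) (xi (ZMod 3) 1 ^ 3)
      + R (ZMod 3) (xi (ZMod 3) 1 ^ 3) := by
    rw [map_pow, map_pow, map_pow, ← frob]; exact congrArg (· ^ 3) e1
  have hy3 : MF.Δ (xi (ZMod 3) 2 ^ 3) = L (ZMod 3) (xi (ZMod 3) 2 ^ 3)
      + L (ZMod 3) (xi (ZMod 3) 1 ^ 9) * R (ZMod 3) (xi (ZMod 3) 1 ^ 3)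
      + R (ZMod 3) (xi (ZMod 3) 2 ^ 3) := by
    have := congrArg (· ^ 3) e2
    simp only [frob] at this
    rw [map_pow, map_pow, map_pow, map_pow, map_pow]
    refine this.trans ?_
    change L (ZMod 3) (xi (ZMod 3) 2) ^ 3 +
      (L (ZMod 3) (xi (ZMod 3) 1) ^ 3 * R (ZMod 3) (xi (ZMod 3) 1)) ^ 3
        + R (ZMod 3) (xi (ZMod 3) 2) ^ 3 = _
    ring
  refine ⟨e1, hx3, ?_, ?_, hy3, ?_, rfl⟩
  · have := congrArg (· ^ 3) hx3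
    simp only [frob] at this
    simp only [map_pow] at this ⊢
    simp only [← pow_mul] at this
    exact this
  · rw [map_pow]; exact e2
  · rw [map_pow, map_pow]; exact e3

end six

/-! ### the classes `h_i`, `b_j` -/

/-- `h_i = [ξ₁^{3^i}]` over `k` -/
noncomputable def hh (k : Type*) [CommRing k] (i : ℕ) : TensorAlgebra k (MvPolynomial ℕ k) :=
  e k (xi k 1 ^ 3 ^ i)

/-- `b_j = [ξ₁^{3^j}|ξ₁^{2·3^j}] + [ξ₁^{2·3^j}|ξ₁^{3^j}]` over `k` -/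
noncomputable def bb (k : Type*) [CommRing k] (j : ℕ) : TensorAlgebra k (MvPolynomial ℕ k) :=
  e k (xi k 1 ^ 3 ^ j) * e k (xi k 1 ^ (2 * 3 ^ j))
    + e k (xi k 1 ^ (2 * 3 ^ j)) * e k (xi k 1 ^ 3 ^ j)

lemma Ψ_hh (k : Type*) [CommRing k] (i : ℕ) : (mdata k).Ψ (hh k i) = hh k (i + 1) := by
  rw [hh, hh, MData.Ψ_ι, map_pow (mdata k).ψ, show (mdata k).ψ (xi k 1) = xi k 1 ^ 3 from (mdata k).ψξ 1,
    ← pow_mul, pow_succ' 3 i]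

lemma Ψ_bb (k : Type*) [CommRing k] (i : ℕ) : (mdata k).Ψ (bb k i) = bb k (i + 1) := by
  rw [bb, bb, map_add, map_mul, map_mul, MData.Ψ_ι, MData.Ψ_ι, map_pow (mdata k).ψ, map_pow (mdata k).ψ,
    show (mdata k).ψ (xi k 1) = xi k 1 ^ 3 from (mdata k).ψξ 1,
    ← pow_mul, ← pow_mul, pow_succ' 3 i]
  have : 3 * (2 * 3 ^ i) = 2 * (3 * 3 ^ i) := by ring
  rw [this]

lemma rho_hh (i : ℕ) : rho (hh ℤ i) = hh (ZMod 3) i := by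
  rw [hh, hh, e, rho_ι, map_pow red, red_xi]

lemma rho_bb (i : ℕ) : rho (bb ℤ i) = bb (ZMod 3) i := by
  rw [bb, bb, map_add, map_mul, map_mul, rho_ι, rho_ι, map_pow red, map_pow red, red_xi]

lemma sgn_hh (k : Type*) [CommRing k] (i : ℕ) : sgn (hh k i) = - hh k i := sgn_e _

lemma sgn_bb (k : Type*) [CommRing k] (i : ℕ) : sgn (bb k i) = bb k i := by
  rw [bb, map_add, sgn_two, sgn_two]

/-- `g₀ = [y|x] - [x³|x²]` -/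
noncomputable def gg (k : Type*) [CommRing k] : TensorAlgebra k (MvPolynomial ℕ k) :=
  e k (xi k 2) * e k (xi k 1) - e k (xi k 1 ^ 3) * e k (xi k 1 ^ 2)

lemma sgn_gg (k : Type*) [CommRing k] : sgn (gg k) = gg k := by
  rw [gg, map_sub, sgn_two, sgn_two]

/-! ### facts over `F₃` -/

/-- a primitive letter commutes with `b` built on a primitive letter, up to a coboundary -/
lemma comm_prim {k P : Type*} [CommRing k] [CommRing P] [Algebra k P] (M : MData k P) {u v : P}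
    (hu : M.Δ u = L k u + R k u) (hv : M.Δ v = L k v + R k v) :
    M.d (e k (u * v) * e k (v ^ 2) + e k v * e k (u * v ^ 2)
      + e k (u * v ^ 2) * e k v + e k (v ^ 2) * e k (u * v)) =
    (e k v * e k (v ^ 2) + e k (v ^ 2) * e k v) * e k u
      - e k u * (e k v * e k (v ^ 2) + e k (v ^ 2) * e k v) := by
  have dv : M.d (e k v) = 0 := by
    have h := M.d_of_Δ (m := v) (S := 0) (by rw [hv]; ring)
    rw [e, h, map_zero, neg_zero]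
  have dv2 : M.d (e k (v ^ 2)) = -(2 • (e k v * e k v)) := by
    have h := M.d_of_Δ (m := v ^ 2) (S := 2 • (L k v * R k v)) (by
      simp only [map_mul, map_pow, hu, hv]; ring)
    rw [e, h]; simp only [map_add, map_nsmul, conc_LR]
  have duv : M.d (e k (u * v)) = -(e k u * e k v + e k v * e k u) := by
    have h := M.d_of_Δ (m := u * v) (S := L k u * R k v + L k v * R k u) (by
      simp only [map_mul, map_pow, hu, hv]; ring)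
    rw [e, h]; simp only [map_add, map_nsmul, conc_LR]
  have duv2 : M.d (e k (u * v ^ 2)) = -(e k u * e k (v ^ 2) + e k (v ^ 2) * e k u
      + 2 • (e k (u * v) * e k v) + 2 • (e k v * e k (u * v))) := by
    have h := M.d_of_Δ (m := u * v ^ 2) (S := L k u * R k (v ^ 2) + L k (v ^ 2) * R k u
      + 2 • (L k (u * v) * R k v) + 2 • (L k v * R k (u * v))) (by
      simp only [map_mul, map_pow, hu, hv]; ring)
    rw [e, h]; simp only [map_add, map_nsmul, conc_LR]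
  simp only [map_add, M.d_mul, sgn_e, dv, dv2, duv, duv2]
  noncomm_ring

lemma TF_pow_prim (i : ℕ) : MF.Δ (xi (ZMod 3) 1 ^ 3 ^ i) =
    L (ZMod 3) (xi (ZMod 3) 1 ^ 3 ^ i) + R (ZMod 3) (xi (ZMod 3) 1 ^ 3 ^ i) := by
  have h3 : ∀ t : MvPolynomial ℕ (ZMod 3) ⊗[ZMod 3] MvPolynomial ℕ (ZMod 3), 3 * t = 0 := by
    intro t
    have h : (3 : ℕ) • t = 0 := by
      rw [← Nat.cast_smul_eq_nsmul (ZMod 3)]
      have : ((3 : ℕ) : ZMod 3) = 0 := by decide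
      rw [this, zero_smul]
    rw [nsmul_eq_mul] at h
    exact_mod_cast h
  have frob : ∀ a b : MvPolynomial ℕ (ZMod 3) ⊗[ZMod 3] MvPolynomial ℕ (ZMod 3),
      (a + b) ^ 3 = a ^ 3 + b ^ 3 := by
    intro a b
    linear_combination h3 (a ^ 2 * b + a * b ^ 2)
  induction i with
  | zero => rw [pow_zero, pow_one]; exact MF.Δ1
  | succ i ih =>
      rw [pow_succ, pow_mul, map_pow _ (xi (ZMod 3) 1 ^ 3 ^ i), map_pow _ (xi (ZMod 3) 1 ^ 3 ^ i),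
        map_pow _ (xi (ZMod 3) 1 ^ 3 ^ i), ← frob, ih]

/-- `h_i b_j = b_j h_i` up to a coboundary -/
lemma comm_F (i j : ℕ) : ∃ c, MF.d c = bb (ZMod 3) j * hh (ZMod 3) i
    - hh (ZMod 3) i * bb (ZMod 3) j := by
  have h := comm_prim MF (TF_pow_prim i) (TF_pow_prim j)
  refine ⟨_, h.trans ?_⟩
  have e : (xi (ZMod 3) 1 ^ 3 ^ j) ^ 2 = xi (ZMod 3) 1 ^ (2 * 3 ^ j) := by
    rw [← pow_mul, mul_comm]
  rw [e, bb, hh]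

lemma comm_null (i j : ℕ) : MZ.Null (bb ℤ j * hh ℤ i - hh ℤ i * bb ℤ j) := by
  rw [null_iff]
  obtain ⟨c, hc⟩ := comm_F i j
  exact ⟨c, by rw [hc, map_sub, map_mul, map_mul, rho_hh, rho_bb]⟩

/-- `g₁ b₀` is null -/
lemma g1b0_null : MZ.Null (MZ.Ψ (gg ℤ) * bb ℤ 0) := by
  rw [null_iff]
  obtain ⟨z, hz⟩ := g1b0 sixF TF_three
  refine ⟨z, hz.trans ?_⟩
  have e1 : MZ.Ψ (gg ℤ) = e ℤ (xi ℤ 2 ^ 3) * e ℤ (xi ℤ 1 ^ 3)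
      - e ℤ ((xi ℤ 1 ^ 3) ^ 3) * e ℤ ((xi ℤ 1 ^ 3) ^ 2) := by
    have h1 : (mdata ℤ).ψ (xi ℤ 1) = xi ℤ 1 ^ 3 := (mdata ℤ).ψξ 1
    have h2 : (mdata ℤ).ψ (xi ℤ 2) = xi ℤ 2 ^ 3 := (mdata ℤ).ψξ 2
    rw [gg, map_sub, map_mul, map_mul, MData.Ψ_ι, MData.Ψ_ι, MData.Ψ_ι, MData.Ψ_ι,
      map_pow (mdata ℤ).ψ, map_pow (mdata ℤ).ψ, h1, h2]
  rw [e1, map_mul, map_sub, map_mul, map_mul, rho_bb]
  simp only [e, rho_ι, map_pow red, red_xi]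
  rw [G1, B0, bb]
  simp only [pow_zero, pow_one, mul_one, ← pow_mul]

/-! ### facts over `ℤ` -/

lemma cyc_hh (i : ℕ) : MZ.Cyc (hh ℤ i) := by
  induction i with
  | zero =>
      have h := MZ.d_of_Δ (m := xi ℤ 1) (S := 0) (by rw [add_zero]; exact MZ.Δ1)
      rw [Cyc, hh, pow_zero, pow_one, e, h, map_zero, neg_zero]
      exact Dv.zero
  | succ i ih => rw [← Ψ_hh]; exact ih.map_Ψ

lemma cyc_bb (i : ℕ) : MZ.Cyc (bb ℤ i) := by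
  induction i with
  | zero =>
      have h := MZ.d_of_Δ (m := xi ℤ 1) (S := 0) (by rw [add_zero]; exact MZ.Δ1)
      have h2 := MZ.d_of_Δ (m := xi ℤ 1 ^ 2) (S := 2 • (L ℤ (xi ℤ 1) * R ℤ (xi ℤ 1))) (by
        rw [map_pow, show MZ.Δ (xi ℤ 1) = L ℤ (xi ℤ 1) + R ℤ (xi ℤ 1) from MZ.Δ1, map_pow, map_pow]
        ring)
      rw [Cyc, bb, pow_zero, pow_one, mul_one, map_add, MZ.d_mul, MZ.d_mul, sgn_e, sgn_e]
      simp only [e, h, h2, map_zero, neg_zero, map_nsmul]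
      rw [← e, conc_LR]
      have : (0 : TZ) * (e ℤ (xi ℤ 1 ^ 2)) + -(e ℤ (xi ℤ 1)) * -(2 • (e ℤ (xi ℤ 1) * e ℤ (xi ℤ 1)))
        + (-(2 • (e ℤ (xi ℤ 1) * e ℤ (xi ℤ 1))) * e ℤ (xi ℤ 1) + -(e ℤ (xi ℤ 1 ^ 2)) * 0) = 0 := by
        noncomm_ring
      rw [this]
      exact Dv.zero
  | succ i ih => rw [← Ψ_bb]; exact ih.map_Ψ

/-- `β P⁰ h₀ = - b₀` -/
lemma bock_h0 : MZ.Bock (hh ℤ 0) (-(bb ℤ 0)) := by
  refine ⟨0, ?_⟩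
  have h := MZ.d_of_Δ (m := xi ℤ 1 ^ 3) (S := 3 • (L ℤ (xi ℤ 1) * R ℤ (xi ℤ 1 ^ 2)
      + L ℤ (xi ℤ 1 ^ 2) * R ℤ (xi ℤ 1))) (by
    rw [map_pow, show MZ.Δ (xi ℤ 1) = L ℤ (xi ℤ 1) + R ℤ (xi ℤ 1) from MZ.Δ1]
    simp only [map_pow]
    ring)
  rw [Ψ_hh, hh, e, zero_add, pow_one, h]
  simp only [map_nsmul, map_add, conc_LR, bb, pow_zero, pow_one, mul_one, smul_zero, add_zero,
    smul_neg]

lemma bock_h1 : MZ.Bock (hh ℤ 1) (-(bb ℤ 1)) := by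
  have h := bock_h0.map_Ψ
  rwa [map_neg, Ψ_hh, Ψ_bb] at h

/-- `β P⁰ b₀ = 0` -/
lemma bock_b0 : ∃ v, MZ.Bock (bb ℤ 0) v ∧ MZ.Null v := by
  obtain ⟨v, hv⟩ := (cyc_bb 0).exists_bock
  refine ⟨v, hv, ?_⟩
  have h := bock_h0.bock torsionfree hv.neg
  have := h.neg
  rwa [neg_neg] at this

/-- `h₁ h₀ = 0` -/
lemma null_h1h0 : MZ.Null (hh ℤ 1 * hh ℤ 0) := by
  have h := MZ.d_of_Δ (m := xi ℤ 2) (S := L ℤ (xi ℤ 1 ^ 3) * R ℤ (xi ℤ 1)) (by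
    have := MZ.Δ2
    rw [map_pow]
    refine this.trans ?_
    change L ℤ (xi ℤ 2) + L ℤ (xi ℤ 1) ^ 3 * R ℤ (xi ℤ 1) + R ℤ (xi ℤ 2) = _
    ring)
  rw [conc_LR] at h
  refine ⟨-(e ℤ (xi ℤ 2)), 0, ?_⟩
  rw [map_neg, e, h, hh, hh, pow_zero, pow_one]
  simp

/-- `b₁ h₁ = h₂ b₀` -/
lemma null_b1h1 : MZ.Null (-(bb ℤ 1 * hh ℤ 1) + hh ℤ 2 * bb ℤ 0) := by
  have h := (bock_h1.mul bock_h0).null torsionfree null_h1h0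
  rw [Ψ_hh, Ψ_hh, sgn_hh] at h
  simpa using h

/-- `b₂ h₂ = h₃ b₁` -/
lemma null_b2h2 : MZ.Null (-(bb ℤ 2 * hh ℤ 2) + hh ℤ 3 * bb ℤ 1) := by
  have h := null_b1h1.map_Ψ
  simpa only [map_add, map_neg, map_mul, Ψ_hh, Ψ_bb] using h

lemma dZ_x : MZ.d (e ℤ (xi ℤ 1)) = 0 := by
  have h := MZ.d_of_Δ (m := xi ℤ 1) (S := 0) (by rw [add_zero]; exact MZ.Δ1)
  rw [e, h, map_zero, neg_zero]

lemma dZ_x2 : MZ.d (e ℤ (xi ℤ 1 ^ 2)) = -(2 • (e ℤ (xi ℤ 1) * e ℤ (xi ℤ 1))) := by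
  have h2 := MZ.d_of_Δ (m := xi ℤ 1 ^ 2) (S := 2 • (L ℤ (xi ℤ 1) * R ℤ (xi ℤ 1))) (by
    rw [map_pow, show MZ.Δ (xi ℤ 1) = L ℤ (xi ℤ 1) + R ℤ (xi ℤ 1) from MZ.Δ1, map_pow, map_pow]
    ring)
  rw [e, h2, map_nsmul, conc_LR]

lemma dZ_x3 : MZ.d (e ℤ (xi ℤ 1 ^ 3)) = -(3 • bb ℤ 0) := by
  have h := bock_h0
  have h2 := MZ.d_of_Δ (m := xi ℤ 1 ^ 3) (S := 3 • (L ℤ (xi ℤ 1) * R ℤ (xi ℤ 1 ^ 2)
      + L ℤ (xi ℤ 1 ^ 2) * R ℤ (xi ℤ 1))) (by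
    rw [map_pow, show MZ.Δ (xi ℤ 1) = L ℤ (xi ℤ 1) + R ℤ (xi ℤ 1) from MZ.Δ1]
    simp only [map_pow]
    ring)
  rw [e, h2]
  simp only [map_nsmul, map_add, conc_LR, bb, pow_zero, pow_one, mul_one]

lemma dZ_y : MZ.d (e ℤ (xi ℤ 2)) = -(e ℤ (xi ℤ 1 ^ 3) * e ℤ (xi ℤ 1)) := by
  have h := MZ.d_of_Δ (m := xi ℤ 2) (S := L ℤ (xi ℤ 1 ^ 3) * R ℤ (xi ℤ 1)) (by
    have := MZ.Δ2
    rw [map_pow]
    refine this.trans ?_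
    change L ℤ (xi ℤ 2) + L ℤ (xi ℤ 1) ^ 3 * R ℤ (xi ℤ 1) + R ℤ (xi ℤ 2) = _
    ring)
  rw [e, h, conc_LR]

lemma cyc_gg : MZ.Cyc (gg ℤ) := by
  refine ⟨bb ℤ 0 * e ℤ (xi ℤ 1 ^ 2)
    - e ℤ (xi ℤ 1 ^ 3) * (e ℤ (xi ℤ 1) * e ℤ (xi ℤ 1)), ?_⟩
  rw [gg, map_sub, MZ.d_mul, MZ.d_mul, sgn_e, sgn_e, dZ_x, dZ_x2, dZ_x3, dZ_y]
  noncomm_ring

/-- `g₀ h₀ + h₁ b₀ = 0` -/
lemma null_g0h0 : MZ.Null (gg ℤ * hh ℤ 0 + hh ℤ 1 * bb ℤ 0) := by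
  refine ⟨-(e ℤ (xi ℤ 2) * e ℤ (xi ℤ 1 ^ 2)), e ℤ (xi ℤ 2) * e ℤ (xi ℤ 1) * e ℤ (xi ℤ 1), ?_⟩
  rw [map_neg, MZ.d_mul, sgn_e, dZ_x2, dZ_y, gg, hh, hh, bb]
  simp only [pow_zero, pow_one, mul_one]
  noncomm_ring

/-! ### the argument -/

lemma Null.congr {s t : TZ} (h : MZ.Null s) (hst : MZ.Null (t - s)) : MZ.Null t := by
  have := h.add hst
  rwa [add_sub_cancel] at this

/-- there is `y₁` with `b₁² = y₁ h₁` and `Ψ(y₁) b₁ = 0` -/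
lemma exists_y : ∃ y : TZ, MZ.Cyc y ∧ MZ.Null (y * hh ℤ 1 - bb ℤ 1 * bb ℤ 1) ∧
    MZ.Null (MZ.Ψ y * bb ℤ 1) := by
  obtain ⟨v, hv, hvn⟩ := bock_b0
  obtain ⟨y, hy⟩ := cyc_gg.exists_bock
  refine ⟨y, hy.cyc torsionfree, ?_, ?_⟩
  · have h := ((hy.mul bock_h0).add (bock_h1.mul hv)).null torsionfree null_g0h0
    have e0 : sgn (MZ.Ψ (gg ℤ)) = MZ.Ψ (gg ℤ) := by rw [← MData.Ψ_sgn, sgn_gg]
    rw [Ψ_hh, Ψ_bb, Ψ_hh, e0, sgn_hh] at h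
    have h2 := g1b0_null
    have h3 : MZ.Null (hh ℤ 2 * v) := hvn.mul_left (cyc_hh 2)
    have := (h.add h2).add h3
    have e : y * hh ℤ (0 + 1) + MZ.Ψ (gg ℤ) * -bb ℤ 0 + (-bb ℤ 1 * bb ℤ (0 + 1)
        + -hh ℤ (1 + 1) * v) + MZ.Ψ (gg ℤ) * bb ℤ 0 + hh ℤ 2 * v
        = y * hh ℤ 1 - bb ℤ 1 * bb ℤ 1 := by
      norm_num
      abel
    rwa [← e]
  · have h := (hy.map_Ψ.mul hv).null torsionfree g1b0_null
    have h2 : MZ.Null (MZ.Ψ (MZ.Ψ (gg ℤ)) * v) := by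
      refine hvn.mul_left ?_
      exact cyc_gg.map_Ψ.map_Ψ
    rw [Ψ_bb] at h
    have e1 : sgn (MZ.Ψ (MZ.Ψ (gg ℤ))) = MZ.Ψ (MZ.Ψ (gg ℤ)) := by
      rw [← MData.Ψ_sgn, ← MData.Ψ_sgn, sgn_gg]
    rw [e1] at h
    have := h.sub h2
    simpa using this

/-- `b₂³ = 0` -/
theorem b2_cube : MZ.Null (bb ℤ 2 * bb ℤ 2 * bb ℤ 2) := by
  obtain ⟨y, hy, h1, h2⟩ := exists_y
  have hy' := hy.map_Ψ
  -- Ψ y * h₂ ~ b₂ b₂
  have h3 := h1.map_Ψ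
  rw [map_sub, map_mul, map_mul, Ψ_hh, Ψ_bb] at h3
  -- b₂ b₂ b₂ ~ Ψ y h₂ b₂
  have a1 := h3.mul_right (cyc_bb 2)
  -- Ψ y h₂ b₂ ~ Ψ y b₂ h₂ ~ Ψ y h₃ b₁ ~ Ψ y b₁ h₃ ~ 0
  have a2 := (comm_null 2 2).mul_left hy'
  have a3 := null_b2h2.mul_left hy'
  have a4 := (comm_null 3 1).mul_left hy'
  have a5 := h2.mul_right (cyc_hh 3)
  have h := (((a5.sub a4).sub a3).sub a2).sub a1
  have e : MZ.Ψ y * bb ℤ 1 * hh ℤ 3 - MZ.Ψ y * (bb ℤ 1 * hh ℤ 3 - hh ℤ 3 * bb ℤ 1)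
      - MZ.Ψ y * (-(bb ℤ 2 * hh ℤ 2) + hh ℤ 3 * bb ℤ 1)
      - MZ.Ψ y * (bb ℤ 2 * hh ℤ 2 - hh ℤ 2 * bb ℤ 2)
      - (MZ.Ψ y * hh ℤ (1 + 1) - bb ℤ (1 + 1) * bb ℤ (1 + 1)) * bb ℤ 2
      = bb ℤ 2 * bb ℤ 2 * bb ℤ 2 := by
    norm_num
    noncomm_ring
  rwa [e] at h

/-- `b_j³ = 0` for `j ≥ 2` -/
theorem bj_cube (n : ℕ) : MZ.Null (bb ℤ (n + 2) * bb ℤ (n + 2) * bb ℤ (n + 2)) := by
  induction n with
  | zero => exact b2_cube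
  | succ n ih =>
      have h := ih.map_Ψ
      rwa [map_mul, map_mul, Ψ_bb] at h

/-- `b_j² h_{j-1} = 0` for `j ≥ 1` -/
theorem bj_sq_h (n : ℕ) : MZ.Null (bb ℤ (n + 1) * bb ℤ (n + 1) * hh ℤ n) := by
  induction n with
  | zero =>
      obtain ⟨y, hy, h1, h2⟩ := exists_y
      have a1 := h1.mul_right (cyc_hh 0)
      have a2 := null_h1h0.mul_left hy
      have h := a2.sub a1
      have e : y * (hh ℤ 1 * hh ℤ 0) - (y * hh ℤ 1 - bb ℤ 1 * bb ℤ 1) * hh ℤ 0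
          = bb ℤ (0 + 1) * bb ℤ (0 + 1) * hh ℤ 0 := by
        norm_num
        noncomm_ring
      rwa [e] at h
  | succ n ih =>
      have h := ih.map_Ψ
      rwa [map_mul, map_mul, Ψ_bb, Ψ_hh] at h

/-- `h_{j-1} b_j² = 0` for `j ≥ 1` -/
theorem h_bj_sq (n : ℕ) : MZ.Null (hh ℤ n * bb ℤ (n + 1) * bb ℤ (n + 1)) := by
  have h1 := (comm_null n (n + 1)).mul_right (cyc_bb (n + 1))
  have h2 := (comm_null n (n + 1)).mul_left (cyc_bb (n + 1))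
  have h := ((bj_sq_h n).sub h2).sub h1
  have e : bb ℤ (n + 1) * bb ℤ (n + 1) * hh ℤ n
      - bb ℤ (n + 1) * (bb ℤ (n + 1) * hh ℤ n - hh ℤ n * bb ℤ (n + 1))
      - (bb ℤ (n + 1) * hh ℤ n - hh ℤ n * bb ℤ (n + 1)) * bb ℤ (n + 1)
      = hh ℤ n * bb ℤ (n + 1) * bb ℤ (n + 1) := by
    noncomm_ring
  rwa [e] at h

/-- `h_0 b_{j-1}³ = 0` for `j ≥ 2` -/
theorem h0_bj_cube (n : ℕ) :
    MZ.Null (hh ℤ 0 * bb ℤ (n + 1) * bb ℤ (n + 1) * bb ℤ (n + 1)) := by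
  cases n with
  | zero => exact (h_bj_sq 0).mul_right (cyc_bb 1)
  | succ n =>
      have h := (bj_cube n).mul_left (cyc_hh 0)
      have e : hh ℤ 0 * (bb ℤ (n + 2) * bb ℤ (n + 2) * bb ℤ (n + 2))
        = hh ℤ 0 * bb ℤ (n + 1 + 1) * bb ℤ (n + 1 + 1) * bb ℤ (n + 1 + 1) := by
        noncomm_ring
      rwa [e] at h

end Vale.Agent.P236
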