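import Vale.Agent.P236.Cochains

/-!
P236.  Reduction modulo `3` of the integral cobar complex of `ℤ[ξ₁, ξ₂, …]`.
-/

open TensorProduct Module
open Finset.HasAntidiagonal (antidiagonal mem_antidiagonal)

namespace Vale.Agent.P236

/-- Milnor's data for `k[ξ₁, ξ₂, …]` -/
noncomputable def mdata (k : Type*) [CommRing k] : MData k (MvPolynomial ℕ k) where
  Δ := milnorΔ k
  ψ := MvPolynomial.expand 3
  ξ := xi k
  gen := by
    rw [← top_le_iff, ← MvPolynomial.adjoin_range_X]
    refine Algebra.adjoin_mono ?_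
    rintro _ ⟨n, rfl⟩
    exact ⟨n + 1, rfl⟩
  ξ0 := rfl
  Δξ m := by
    cases m with
    | zero => simp [xi, Algebra.TensorProduct.one_def]
    | succ n => simp [xi, milnorΔ]
  ψξ m := by
    cases m with
    | zero => simp [xi]
    | succ n => simp [xi]

abbrev TZ := TensorAlgebra ℤ (MvPolynomial ℕ ℤ)
abbrev TF := TensorAlgebra (ZMod 3) (MvPolynomial ℕ (ZMod 3))

noncomputable abbrev MZ : MData ℤ (MvPolynomial ℕ ℤ) := mdata ℤ
noncomputable abbrev MF : MData (ZMod 3) (MvPolynomial ℕ (ZMod 3)) := mdata (ZMod 3)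

/-- reduction of the coefficients mod `3` -/
noncomputable def red : MvPolynomial ℕ ℤ →+* MvPolynomial ℕ (ZMod 3) :=
  MvPolynomial.map (Int.castRingHom (ZMod 3))

/-- reduction, on letters -/
noncomputable def redι : MvPolynomial ℕ ℤ →ₗ[ℤ] TF :=
  ((TensorAlgebra.ι (ZMod 3)).toAddMonoidHom.comp red.toAddMonoidHom).toIntLinearMap

/-- reduction mod `3` of the tensor algebra -/
noncomputable def rho : TZ →+* TF := (TensorAlgebra.lift ℤ redι).toRingHom

lemma rho_ι (a : MvPolynomial ℕ ℤ) :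
    rho (TensorAlgebra.ι ℤ a) = TensorAlgebra.ι (ZMod 3) (red a) := by
  change TensorAlgebra.lift ℤ redι (TensorAlgebra.ι ℤ a) = _
  rw [TensorAlgebra.lift_ι_apply]; rfl

lemma TF_three (t : TF) : 3 • t = 0 := by
  have : (3 : ℕ) • t = ((3 : ℕ) : ZMod 3) • t := by rw [Nat.cast_smul_eq_nsmul]
  rw [this]
  have h : ((3 : ℕ) : ZMod 3) = 0 := by decide
  rw [h, zero_smul]

lemma torsionfree (s t : TZ) (h : 3 • s = 3 • t) : s = t := by
  have h' : (3 : ℤ) • s = (3 : ℤ) • t := by
    have e : ∀ u : TZ, (3 : ℤ) • u = (3 : ℕ) • u := fun u => by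
      rw [← natCast_zsmul]; rfl
    rw [e, e]; exact h
  have b := (MvPolynomial.basisMonomials ℕ ℤ).tensorAlgebra
  apply b.repr.injective
  ext w
  have h2 := congrArg (fun z => b.repr z w) h'
  simp only [map_smul, Finsupp.smul_apply, smul_eq_mul] at h2
  omega

/-- the basis of words -/
lemma tensorAlgebra_repr_lift {R M κ : Type*} [CommRing R] [AddCommGroup M] [Module R M]
    (b : Basis κ R M) (v : FreeMonoid κ) :
    b.tensorAlgebra.repr (FreeMonoid.lift (fun i => TensorAlgebra.ι R (b i)) v)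
      = Finsupp.single v 1 := by
  rw [Module.Basis.tensorAlgebra_repr_apply]
  let f : FreeMonoid κ →* MonoidAlgebra R (FreeMonoid κ) :=
    (((FreeAlgebra.equivMonoidAlgebraFreeMonoid (R := R) (X := κ)).toAlgHom.comp
      (TensorAlgebra.equivFreeAlgebra b).toAlgHom) : TensorAlgebra R M →* _).comp
      (FreeMonoid.lift (fun i => TensorAlgebra.ι R (b i)))
  have hf : f = MonoidAlgebra.of R (FreeMonoid κ) := by
    refine FreeMonoid.hom_eq fun i => ?_
    simp [f, FreeAlgebra.equivMonoidAlgebraFreeMonoid]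
  have h := DFunLike.congr_fun hf v
  have h2 : FreeAlgebra.equivMonoidAlgebraFreeMonoid ((TensorAlgebra.equivFreeAlgebra b)
      ((FreeMonoid.lift fun i => (TensorAlgebra.ι R) (b i)) v)) = MonoidAlgebra.single v (1 : R) := by
    simpa [f] using h
  simp only [FreeAlgebra.basisFreeMonoid, Basis.map_repr, LinearEquiv.symm_symm,
    LinearEquiv.trans_apply, AlgEquiv.toLinearEquiv_apply, h2]
  ext w
  simp

lemma tensorAlgebra_eq_lift {R M κ : Type*} [CommRing R] [AddCommGroup M] [Module R M]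
    (b : Basis κ R M) (v : FreeMonoid κ) :
    b.tensorAlgebra v = FreeMonoid.lift (fun i => TensorAlgebra.ι R (b i)) v := by
  apply b.tensorAlgebra.repr.injective
  rw [tensorAlgebra_repr_lift, Basis.repr_self]

/-- basis of words of monomials, over `ℤ` -/
noncomputable abbrev BZ : Basis (FreeMonoid (ℕ →₀ ℕ)) ℤ TZ :=
  (MvPolynomial.basisMonomials ℕ ℤ).tensorAlgebra

/-- basis of words of monomials, over `F₃` -/
noncomputable abbrev BF : Basis (FreeMonoid (ℕ →₀ ℕ)) (ZMod 3) TF :=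
  (MvPolynomial.basisMonomials ℕ (ZMod 3)).tensorAlgebra

lemma rho_BZ (v : FreeMonoid (ℕ →₀ ℕ)) : rho (BZ v) = BF v := by
  rw [tensorAlgebra_eq_lift, tensorAlgebra_eq_lift]
  have : (rho : TZ →* TF).comp
      (FreeMonoid.lift (fun i => TensorAlgebra.ι ℤ (MvPolynomial.basisMonomials ℕ ℤ i)))
      = FreeMonoid.lift (fun i => TensorAlgebra.ι (ZMod 3)
        (MvPolynomial.basisMonomials ℕ (ZMod 3) i)) := by
    refine FreeMonoid.hom_eq fun i => ?_
    simp [rho_ι, red]
  exact DFunLike.congr_fun this v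

lemma repr_rho (t : TZ) (w : FreeMonoid (ℕ →₀ ℕ)) :
    BF.repr (rho t) w = ((BZ.repr t w : ℤ) : ZMod 3) := by
  let f : TZ →+ ZMod 3 :=
    { toFun := fun t => BF.repr (rho t) w
      map_zero' := by simp only [map_zero, Finsupp.zero_apply]
      map_add' := fun a b => by simp only [map_add, Finsupp.add_apply] }
  let g : TZ →+ ZMod 3 :=
    { toFun := fun t => ((BZ.repr t w : ℤ) : ZMod 3)
      map_zero' := by simp only [map_zero, Finsupp.zero_apply, Int.cast_zero]
      map_add' := fun a b => by simp only [map_add, Finsupp.add_apply, Int.cast_add] }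
  have h : f.toIntLinearMap = g.toIntLinearMap := by
    refine BZ.ext fun v => ?_
    change BF.repr (rho (BZ v)) w = ((BZ.repr (BZ v) w : ℤ) : ZMod 3)
    rw [rho_BZ, Basis.repr_self, Basis.repr_self]
    classical
    rw [Finsupp.single_apply, Finsupp.single_apply]
    split_ifs <;> simp
  exact LinearMap.congr_fun h t

/-- the kernel of the reduction is `3 TZ` -/
lemma dv_of_rho {t : TZ} (h : rho t = 0) : Dv 3 t := by
  have hd : ∀ w, (3 : ℤ) ∣ BZ.repr t w := by
    intro w
    have := repr_rho t w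
    rw [h, map_zero, Finsupp.zero_apply] at this
    exact (ZMod.intCast_zmod_eq_zero_iff_dvd _ 3).1 this.symm
  refine ⟨BZ.repr.symm ((BZ.repr t).mapRange (fun n => n / 3) (by simp)), ?_⟩
  apply BZ.repr.injective
  ext w
  rw [map_nsmul, LinearEquiv.apply_symm_apply]
  simp only [Finsupp.smul_apply, Finsupp.mapRange_apply, nsmul_eq_mul, Nat.cast_ofNat]
  rw [Int.mul_ediv_cancel' (hd w)]

lemma rho_surj (s : TF) : ∃ t, rho t = s := by
  induction s using TensorAlgebra.induction with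
  | algebraMap r =>
      obtain ⟨n, rfl⟩ := ZMod.intCast_surjective r
      exact ⟨(n : TZ), by rw [map_intCast, map_intCast]⟩
  | ι a =>
      obtain ⟨b, hb⟩ := MvPolynomial.map_surjective (Int.castRingHom (ZMod 3))
        ZMod.intCast_surjective a
      exact ⟨TensorAlgebra.ι ℤ b, by rw [rho_ι]; exact congrArg _ hb⟩
  | mul a b ha hb =>
      obtain ⟨u, rfl⟩ := ha; obtain ⟨v, rfl⟩ := hb
      exact ⟨u * v, map_mul _ _ _⟩
  | add a b ha hb =>
      obtain ⟨u, rfl⟩ := ha; obtain ⟨v, rfl⟩ := hb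
      exact ⟨u + v, map_add _ _ _⟩

lemma red_xi (m : ℕ) : red (xi ℤ m) = xi (ZMod 3) m := by
  cases m with
  | zero => simp [xi, red]
  | succ n => simp [xi, red]

/-- `a ⊗ b ↦ [a|b]` followed by reduction -/
lemma rho_conc_milnor (a : MvPolynomial ℕ ℤ) :
    rho (conc (milnorΔ ℤ a)) = conc (milnorΔ (ZMod 3) (red a)) := by
  -- the reduction on `P ⊗ P`
  let F := MvPolynomial ℕ (ZMod 3)
  let l : MvPolynomial ℕ ℤ →ₐ[ℤ] F ⊗[ZMod 3] F :=
    ((Algebra.TensorProduct.includeLeft (R := ZMod 3) (S := ZMod 3) (A := F) (B := F) :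
      F →+* F ⊗[ZMod 3] F).comp red).toIntAlgHom
  let r : MvPolynomial ℕ ℤ →ₐ[ℤ] F ⊗[ZMod 3] F :=
    (((Algebra.TensorProduct.includeRight (R := ZMod 3) (A := F) (B := F)) :
      F →+* F ⊗[ZMod 3] F).comp red).toIntAlgHom
  let κ : MvPolynomial ℕ ℤ ⊗[ℤ] MvPolynomial ℕ ℤ →ₐ[ℤ] F ⊗[ZMod 3] F :=
    Algebra.TensorProduct.lift l r (fun _ _ => Commute.all _ _)
  have hκ : ∀ a b, κ (a ⊗ₜ[ℤ] b) = red a ⊗ₜ[ZMod 3] red b := by
    intro a b
    have e1 : κ (a ⊗ₜ[ℤ] b) = l a * r b := Algebra.TensorProduct.lift_tmul _ _ _ _ _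
    have e2 : l a = red a ⊗ₜ[ZMod 3] 1 := rfl
    have e3 : r b = 1 ⊗ₜ[ZMod 3] red b := rfl
    rw [e1, e2, e3, Algebra.TensorProduct.tmul_mul_tmul, one_mul, mul_one]
  have h1 : ∀ z, rho (conc z) = conc (κ z) := by
    intro z
    induction z using TensorProduct.induction_on with
    | zero => simp
    | tmul a b => rw [hκ, conc_tmul, conc_tmul, map_mul, rho_ι, rho_ι]
    | add a b ha hb => rw [map_add, map_add, map_add, map_add, ha, hb]
  have h2 : ∀ a, κ (milnorΔ ℤ a) = milnorΔ (ZMod 3) (red a) := by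
    intro a
    have : (κ.comp (milnorΔ ℤ) : MvPolynomial ℕ ℤ →+* F ⊗[ZMod 3] F)
        = ((milnorΔ (ZMod 3) : F →+* F ⊗[ZMod 3] F)).comp red := by
      refine MvPolynomial.ringHom_ext (fun n => ?_) (fun n => ?_)
      · simp
      · have hX : (MvPolynomial.X n : MvPolynomial ℕ ℤ) = xi ℤ (n + 1) := rfl
        have h3 := (mdata ℤ).Δξ (n + 1)
        have h4 := (mdata (ZMod 3)).Δξ (n + 1)
        change κ (milnorΔ ℤ (MvPolynomial.X n)) = milnorΔ (ZMod 3) (red (MvPolynomial.X n))
        rw [hX, red_xi]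
        change κ ((mdata ℤ).Δ ((mdata ℤ).ξ (n + 1))) = (mdata (ZMod 3)).Δ ((mdata (ZMod 3)).ξ (n + 1))
        rw [h3, h4, map_sum]
        refine Finset.sum_congr rfl fun p _ => ?_
        rw [hκ, map_pow]
        change (red (xi ℤ p.1) ^ _) ⊗ₜ[ZMod 3] red (xi ℤ p.2) = _
        rw [red_xi, red_xi]
        rfl
    exact RingHom.congr_fun this a
  rw [h1, h2]

lemma rho_sgn (t : TZ) : rho (sgn t) = sgn (rho t) := by
  induction t using TensorAlgebra.induction with
  | algebraMap r => simp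
  | ι a => rw [sgn_ι, map_neg, rho_ι, sgn_ι]
  | mul a b ha hb => simp [ha, hb]
  | add a b ha hb => simp [ha, hb]

/-- reduction commutes with the differentials -/
lemma rho_d (t : TZ) : rho (MZ.d t) = MF.d (rho t) := by
  induction t using TensorAlgebra.induction with
  | algebraMap r =>
      rw [MData.d_algebraMap, map_zero, eq_intCast, map_intCast]
      have := MF.d_algebraMap (r : ZMod 3)
      rw [map_intCast] at this
      exact this.symm
  | ι a =>
      rw [MData.d_ι, rho_ι, MData.d_ι, map_sub, map_add, map_mul, map_mul, rho_ι, rho_ι, map_one]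
      congr 1
      exact rho_conc_milnor a
  | mul a b ha hb =>
      rw [MData.d_mul, map_add, map_mul, map_mul, map_mul, MData.d_mul, ha, hb, rho_sgn]
  | add a b ha hb => rw [map_add, map_add, map_add, map_add, ha, hb]

/-- null over `ℤ` iff the reduction is a coboundary -/
lemma null_iff (t : TZ) : MZ.Null t ↔ ∃ c, MF.d c = rho t := by
  constructor
  · rintro ⟨c, u, rfl⟩
    exact ⟨rho c, by rw [map_add, map_nsmul, TF_three, add_zero, rho_d]⟩
  · rintro ⟨c, hc⟩
    obtain ⟨c', rfl⟩ := rho_surj c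
    obtain ⟨u, hu⟩ := dv_of_rho (t := t - MZ.d c') (by rw [map_sub, rho_d, hc, sub_self])
    exact ⟨c', u, by rw [← hu]; abel⟩

end Vale.Agent.P236
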